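import Vale.Agent.P329.Code

namespace Vale.Agent.P329

set_option linter.unusedSectionVars false

namespace Par

variable {G : Type} [Fintype G] [Group G] (p : Par G) {α : Type} (φ : α → G)

def Valid (y : List α) : Prop :=
  ∃ (l : List (p.CW φ)) (z : List α), AllR (p.kd φ) l ∧ l.length < p.Lam ∧ p.W ≤ z.length ∧
    p.NoRet φ z ∧ y = p.flat φ l ++ z

theorem Valid.append {p : Par G} {φ : α → G} {y : List α} (h : p.Valid φ y) (b : List α) :
    p.Valid φ (y ++ b) := by
  obtain ⟨l, z, h1, h2, h3, h4, rfl⟩ := h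
  exact ⟨l, z ++ b, h1, h2, by simp; omega, (p.noRet_append φ b h3).2 h4, by simp⟩

open Classical in
theorem count_ret (l : List (p.CW φ)) (z : List α) (h1 : AllR (p.kd φ) l) (h4 : p.NoRet φ z)
    (_h3 : p.W ≤ z.length) :
    ((Finset.range (p.W + 1)).filter (fun γ => ev φ ((p.flat φ l ++ z).take γ) = 1)).card ≤
      l.length + 1 := by
  induction l with
  | nil =>
    refine (Finset.card_le_card (t := {0}) ?_).trans (by simp)
    intro γ hγ
    rw [Finset.mem_filter, Finset.mem_range, flat_nil, List.nil_append] at hγ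
    by_contra h0
    exact h4 γ (Nat.pos_of_ne_zero (by simpa using h0)) (by omega) hγ.2
  | cons x l ih =>
    have ih' := ih (fun y hy => h1 y (by simp [hy]))
    have hx := (p.kd_none φ).1 (h1 x (by simp))
    refine (Finset.card_le_card (t := insert 0 (((Finset.range (p.W + 1)).filter
      (fun γ => ev φ ((p.flat φ l ++ z).take γ) = 1)).image (· + x.1.length))) ?_).trans ?_
    · intro γ hγ
      simp only [Finset.mem_filter, Finset.mem_range, flat_cons, List.append_assoc] at hγ
      rw [Finset.mem_insert]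
      by_cases h0 : γ = 0
      · exact Or.inl h0
      right
      by_cases hlt : γ < x.1.length
      · rw [List.take_append_of_le_length hlt.le] at hγ
        exact absurd hγ.2 (hx.2.2.2 γ (by omega) hlt)
      · obtain ⟨γ', rfl⟩ : ∃ γ', γ = x.1.length + γ' := ⟨γ - x.1.length, by omega⟩
        rw [List.take_length_add_append, ev_append, hx.2.2.1, one_mul] at hγ
        exact Finset.mem_image.2 ⟨γ', by
          simp only [Finset.mem_filter, Finset.mem_range]
          exact ⟨by omega, hγ.2⟩, by omega⟩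
    · refine (Finset.card_insert_le _ _).trans ?_
      have := Finset.card_image_le (s := ((Finset.range (p.W + 1)).filter
        (fun γ => ev φ ((p.flat φ l ++ z).take γ) = 1))) (f := (· + x.1.length))
      simp only [List.length_cons]
      omega

theorem capacity (Y : List α) (a : ℕ) (V : Finset ℕ) (h1 : ∀ A ∈ V, a ≤ A ∧ A ≤ a + p.W)
    (h2 : ∀ A ∈ V, p.Valid φ (Y.drop A)) : V.card ≤ Fintype.card G * p.Lam := by
  classical
  by_contra hlt
  obtain ⟨g, _, hg⟩ := Finset.exists_lt_card_fiber_of_mul_lt_card_of_maps_to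
    (s := V) (t := Finset.univ) (f := fun A => ev φ (Y.take A)) (n := p.Lam)
    (fun _ _ => Finset.mem_univ _) (by simpa using hlt)
  have hne : (V.filter (fun A => ev φ (Y.take A) = g)).Nonempty :=
    Finset.card_pos.1 (by omega)
  obtain ⟨A0, hA0, hmin⟩ := Finset.exists_min_image _ id hne
  rw [Finset.mem_filter] at hA0
  obtain ⟨l, z, a1, a2, a3, a4, a5⟩ := h2 A0 hA0.1
  have hc := p.count_ret φ l z a1 a4 a3
  rw [← a5] at hc
  have : (V.filter (fun A => ev φ (Y.take A) = g)).card ≤
      ((Finset.range (p.W + 1)).filter (fun γ => ev φ ((Y.drop A0).take γ) = 1)).card := by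
    apply Finset.card_le_card_of_injOn (fun A => A - A0)
    · intro A hA
      have hA' := hmin A hA
      simp only [id] at hA'
      simp only [Finset.coe_filter, Set.mem_ofPred_eq, Finset.mem_range] at hA ⊢
      have b1 := h1 A hA.1
      have b2 := h1 A0 hA0.1
      refine ⟨by omega, ?_⟩
      have e : Y.take A = Y.take A0 ++ (Y.drop A0).take (A - A0) := by
        rw [← List.take_add]
        congr 1
        omega
      have e2 := hA.2
      rw [e, ev_append, hA0.2] at e2
      simpa using e2
    · intro A hA B hB e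
      have hA' := hmin A hA
      have hB' := hmin B hB
      simp only [id] at hA' hB' e
      omega
  omega

/-- hypotheses for the inner level -/
abbrev HC : Type := (Fin p.nz × p.Msg) × G

noncomputable def rest (h : p.HC) (y : List α) : ℕ :=
  ∑ k ∈ Finset.Ico (h.1.1 : ℕ) p.nz,
    dig (h.2 * ev φ (y.take (p.ze k - p.cpos h.1.1 h.1.2))) * Fintype.card G ^ k

noncomputable def beta (h : p.HC) (y : List α) : ℕ :=
  p.L0 - p.cpos h.1.1 h.1.2 + (h.1.2.2 + p.rest φ h y)

def stT (t : p.T) (g : G) : p.T := (fun q => t.1 (q * g⁻¹) + t.2, 0)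

noncomputable def outT (h : p.HC) (y : List α) : p.T :=
  p.stT h.1.2.1 (h.2 * ev φ (y.take (p.beta φ h y)))

def Acc (h : p.HC) (y : List α) : Prop :=
  ∀ h' : p.HC, h' ≠ h → ¬ p.Valid φ (y.drop (p.beta φ h' y))

/-- `h` is the true hypothesis for the head `z` and the token `t` -/
def IsTrue (h : p.HC) (t : p.T) (z : List α) : Prop :=
  p.NoRet φ z ∧ h.1.2.1 = t ∧ (h.1.2.2 : ℕ) = p.chk φ z h.1.1 ∧ z.length = p.cpos h.1.1 h.1.2 ∧
    h.2 = ev φ z

theorem rest_append (h : p.HC) (y b : List α) (hy : p.L0 ≤ y.length + p.cpos h.1.1 h.1.2) :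
    p.rest φ h (y ++ b) = p.rest φ h y := by
  apply Finset.sum_congr rfl
  intro k hk
  have := p.ze_le_L0 (Finset.mem_Ico.1 hk).2
  rw [List.take_append_of_le_length (by omega)]

theorem beta_append (h : p.HC) (y b : List α) (hy : p.L0 ≤ y.length) :
    p.beta φ h (y ++ b) = p.beta φ h y := by
  unfold beta
  rw [p.rest_append φ h y b (by omega)]

theorem rest_lt (h : p.HC) (y : List α) : p.rest φ h y < p.cs := by
  refine lt_of_le_of_lt ?_ (digsum_lt (Fintype.card G)
    (fun k => dig (h.2 * ev φ (y.take (p.ze k - p.cpos h.1.1 h.1.2)))) (fun _ => dig_lt _) p.nz)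
  apply Finset.sum_le_sum_of_subset
  intro k hk
  simp only [Finset.mem_Ico, Finset.mem_range] at hk ⊢
  exact hk.2

theorem rest_sum (h : p.HC) (x1 y : List α) (hl : x1.length = p.cpos h.1.1 h.1.2) :
    p.chk φ x1 h.1.1 + p.rest φ h y = ∑ k ∈ Finset.range p.nz,
      dig ((if k < h.1.1 then 1 else h.2 * (ev φ x1)⁻¹) * ev φ ((x1 ++ y).take (p.ze k))) *
        Fintype.card G ^ k := by
  rw [← Finset.sum_range_add_sum_Ico _ h.1.1.2.le]
  congr 1
  · apply Finset.sum_congr rfl
    intro k hk
    have hk' := Finset.mem_range.1 hk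
    rw [if_pos hk', one_mul, List.take_append_of_le_length (hl ▸ p.ze_le_cpos _ _ hk')]
  · apply Finset.sum_congr rfl
    intro k hk
    have hk' := (Finset.mem_Ico.1 hk).1
    have h2 := p.cpos_le_ze h.1.1 h.1.2 hk'
    rw [if_neg (by omega), List.take_append, List.take_of_length_le (l := x1) (by omega), ev_append,
      hl]
    simp [mul_assoc]

theorem true_beta {h : p.HC} {t : p.T} {x1 x2 : List α} (ht : p.IsTrue φ h t x1)
    (hx : p.IsT φ (x1 ++ x2)) (b : List α) :
    p.beta φ h (x2 ++ b) = x2.length ∧ p.outT φ h (x2 ++ b) = p.stT t (ev φ (x1 ++ x2)) := by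
  obtain ⟨_, h2, h3, h4, h5⟩ := ht
  have hlen := hx.len.1
  have hc := p.cpos_le_L0 h.1.1 h.1.2
  have e1 : p.beta φ h (x2 ++ b) = x2.length := by
    unfold beta
    rw [p.rest_append φ h x2 b (by simp at hlen; omega), h3, p.rest_sum φ h x1 x2 h4]
    have e2 := hx.2
    simp only [h5, mul_inv_cancel, ite_self, one_mul]
    unfold chk at e2
    simp only [List.length_append] at e2
    omega
  refine ⟨e1, ?_⟩
  unfold outT
  rw [e1, List.take_left, h2, h5, ev_append]

theorem unblocked (x : List α) (hx : p.IsT φ x) (t : p.T) (R : List α) :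
    ∃ x1 x2 h, x = x1 ++ x2 ∧ p.IsTrue φ h t x1 ∧ p.Acc φ h (x2 ++ R) := by
  classical
  by_contra hcon
  push Not at hcon
  have hlen := hx.len.1
  let m : Fin p.nz → p.Msg := fun i => (t, ⟨p.chk φ x i, p.chk_lt φ x i.2.le⟩)
  have hl : ∀ i, (x.take (p.cpos i (m i))).length = p.cpos i (m i) := by
    intro i
    have := p.cpos_le_L0 i (m i)
    rw [List.length_take]
    omega
  have hchk : ∀ i : Fin p.nz, p.chk φ (x.take (p.cpos i (m i))) i = p.chk φ x i := by
    intro i
    have := p.chk_append φ (x.take (p.cpos i (m i))) (x.drop (p.cpos i (m i))) i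
      (fun k hk => by rw [hl]; exact p.ze_le_cpos _ _ hk)
    rw [List.take_append_drop] at this
    exact this.symm
  have htrue : ∀ i, p.IsTrue φ ((i, m i), ev φ (x.take (p.cpos i (m i)))) t
      (x.take (p.cpos i (m i))) := by
    intro i
    refine ⟨?_, rfl, (hchk i).symm, hl i, rfl⟩
    rw [← p.noRet_append φ (x.drop (p.cpos i (m i))) (by rw [hl]; exact p.W_le_cpos _ _),
      List.take_append_drop]
    exact hx.1
  have hb := fun i => hcon _ (x.drop (p.cpos i (m i))) _ (List.take_append_drop _ _).symm (htrue i)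
  unfold Acc at hb
  push Not at hb
  choose h hne hval using hb
  let A : Fin p.nz → ℕ := fun i => p.cpos i (m i) + p.beta φ (h i) (x.drop (p.cpos i (m i)) ++ R)
  have hAv : ∀ i, p.Valid φ ((x ++ R).drop (A i)) := by
    intro i
    have := hval i
    have e : x.drop (p.cpos i (m i)) ++ R = (x ++ R).drop (p.cpos i (m i)) := by
      rw [List.drop_append_of_le_length ((p.cpos_le_L0 _ _).trans hlen)]
    rw [e, List.drop_drop] at this
    simp only [A]
    rw [e]
    exact this
  have hσ : ∀ i, ((h i).1.2.2 : ℕ) + p.rest φ (h i) (x.drop (p.cpos i (m i)) ++ R) < p.U := by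
    intro i
    have := p.rest_lt φ (h i) (x.drop (p.cpos i (m i)) ++ R)
    have := (h i).1.2.2.2
    unfold U
    omega
  have hAr : ∀ i, p.W ≤ A i ∧ A i ≤ p.W + p.W := by
    intro i
    have a1 := hσ i
    have a2 := p.cpos_le_L0 i (m i)
    have a3 := p.W_le_cpos i (m i)
    have a4 := p.W_le_cpos (h i).1.1 (h i).1.2
    simp only [A, beta]
    unfold L0 at *
    unfold W at *
    omega
  have hinj : Function.Injective A := by
    have key : ∀ i j : Fin p.nz, i < j → A i ≠ A j := by
      intro i j hij e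
      have a1 := hσ i
      have a2 := hσ j
      have a3 := p.cpos_le_L0 (h i).1.1 (h i).1.2
      have a4 := p.cpos_le_L0 (h j).1.1 (h j).1.2
      simp only [A, beta] at e
      generalize hs1 : ((h i).1.2.2 : ℕ) + p.rest φ (h i) (x.drop (p.cpos i (m i)) ++ R) = s1 at *
      generalize hs2 : ((h j).1.2.2 : ℕ) + p.rest φ (h j) (x.drop (p.cpos j (m j)) ++ R) = s2 at *
      have e2 : p.U * (2 ^ p.ix i (m i) + 2 ^ p.ix (h j).1.1 (h j).1.2) + s1 =
          p.U * (2 ^ p.ix j (m j) + 2 ^ p.ix (h i).1.1 (h i).1.2) + s2 := by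
        unfold cpos at e a3 a4
        rw [mul_add, mul_add]
        omega
      have e3 : s1 = s2 := by
        have := congrArg (· % p.U) e2
        simpa [Nat.mod_eq_of_lt a1, Nat.mod_eq_of_lt a2] using this
      have e4 := Nat.eq_of_mul_eq_mul_left p.U_pos (by omega :
        p.U * (2 ^ p.ix i (m i) + 2 ^ p.ix (h j).1.1 (h j).1.2) =
          p.U * (2 ^ p.ix j (m j) + 2 ^ p.ix (h i).1.1 (h i).1.2))
      by_cases c1 : p.ix i (m i) = p.ix (h i).1.1 (h i).1.2
      swap
      · exact hij.ne (p.ix_inj (sidon e4 c1).2).1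
      by_cases c2 : p.ix j (m j) = p.ix (h j).1.1 (h j).1.2
      swap
      · exact hij.ne' (p.ix_inj (sidon e4.symm c2).2).1
      obtain ⟨b1, b2⟩ := p.ix_inj c1
      obtain ⟨b3, b4⟩ := p.ix_inj c2
      have d1 := p.rest_sum φ (h i) (x.take (p.cpos i (m i))) (x.drop (p.cpos i (m i)) ++ R)
        (by rw [hl, ← b1, ← b2])
      have d2 := p.rest_sum φ (h j) (x.take (p.cpos j (m j))) (x.drop (p.cpos j (m j)) ++ R)
        (by rw [hl, ← b3, ← b4])
      rw [← List.append_assoc, List.take_append_drop, ← b1, hchk] at d1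
      rw [← List.append_assoc, List.take_append_drop, ← b3, hchk] at d2
      rw [← b2] at hs1
      rw [← b4] at hs2
      simp only [m] at hs1 hs2
      have d3 := digsum_inj _ _ _ (fun _ => dig_lt _) (fun _ => dig_lt _) p.nz
        (d1.symm.trans (hs1.trans (e3.trans (hs2.symm.trans d2)))) i i.2
      have d4 := dig_inj d3
      rw [if_neg (lt_irrefl _), if_pos (by exact_mod_cast hij)] at d4
      apply hne i
      refine Prod.ext (Prod.ext b1.symm b2.symm) ?_
      simpa [mul_inv_eq_one] using d4
    intro i j e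
    by_contra hij
    rcases lt_or_gt_of_ne hij with h' | h'
    · exact key i j h' e
    · exact key j i h' e.symm
  have hcap := p.capacity φ (x ++ R) p.W (Finset.univ.image A)
    (by simpa using hAr) (by simpa using hAv)
  rw [Finset.card_image_of_injective _ hinj] at hcap
  simp only [Finset.card_univ, Fintype.card_fin] at hcap
  unfold nz at hcap
  omega

end Par

end Vale.Agent.P329
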