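import Vale.Agent.P329.Chan1

namespace Vale.Agent.P329

set_option linter.unusedSectionVars false

namespace Par

variable {G : Type} [Fintype G] [Group G] (p : Par G) {α : Type} (φ : α → G)

noncomputable def Lmin : ℕ := p.Lc + p.Lam * p.W + p.W

noncomputable def Lbig : ℕ := 2 * p.Lmin + 3 * p.Lc + p.Lam * p.W

def HeadC (t : p.T) (z : List α) : Prop := ∃ h, p.IsTrue φ h t z

def K3 (y : List α) : Prop :=
  p.Lmin ≤ y.length ∧ y.length ≤ p.Lbig ∧ ∃ h l z, p.Acc φ h y ∧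
    y.drop (p.beta φ h y) = p.flat φ l ++ z ∧ p.HeadC φ (p.run (p.kd φ) (p.outT φ h y) l) z

def En3 (t : p.T) (y : List α) : Prop :=
  p.Lmin ≤ y.length ∧ y.length ≤ p.Lbig ∧ ∃ h l, p.Acc φ h y ∧
    y.drop (p.beta φ h y) = p.flat φ l ∧ p.run (p.kd φ) (p.outT φ h y) l = t

def St3 (s : p.T) (y : List α) : Prop :=
  y.length ≤ p.Lbig ∧ ∃ l z, y = p.flat φ l ++ z ∧ p.HeadC φ (p.run (p.kd φ) s l) z

def Short (s t : p.T) (y : List α) : Prop :=
  y.length ≤ p.Lbig ∧ ∃ l, y = p.flat φ l ∧ p.run (p.kd φ) s l = t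

def Tail3 (t : p.T) (w : List α) : Prop :=
  ∃ x y, (∃ S : List (List α), (∀ z ∈ S, p.K3 φ z) ∧ x = S.flatten) ∧ p.En3 φ t y ∧ w = x ++ y

def B3 (s t : p.T) (w : List α) : Prop :=
  p.Short φ s t w ∨ ∃ x y, p.St3 φ s x ∧ p.Tail3 φ t y ∧ w = x ++ y

theorem ht_B3 [Finite α] (s t : p.T) : Ht 1 (p.B3 φ s t) :=
  (Ht.bounded 1 p.Lbig (fun _ h => h.1)).or ((Ht.bounded 1 p.Lbig (fun _ h => h.1)).mul
    ((Ht.bounded 0 p.Lbig (fun _ h => h.2.1)).star.mul (Ht.bounded 1 p.Lbig (fun _ h => h.2.1))))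

theorem NoVL.right {Γ : Type} {kind : Γ → Option G} {a b : List Γ} (h : p.NoVL kind (a ++ b)) :
    p.NoVL kind b := by
  rintro ⟨c, v, d, rfl, h2⟩
  exact h ⟨a ++ c, v, d, by simp, h2⟩

theorem NoVL.short {Γ : Type} {kind : Γ → Option G} {a b : List Γ} (h : p.NoVL kind (a ++ b))
    (ha : AllR kind a) : a.length < p.Lam := by
  by_contra hlt
  refine h ⟨[], a.take p.Lam, a.drop p.Lam ++ b, ?_, fun x hx => ha x (List.mem_of_mem_take hx), ?_⟩
  · rw [List.nil_append, ← List.append_assoc, List.take_append_drop]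
  · rw [List.length_take]
    omega

theorem step_T {x : p.CW φ} (h : p.kd φ x ≠ none) (t : p.T) :
    p.step (p.kd φ) t x = p.stT t (ev φ x.1) := by
  simp only [step, (p.kd_T φ h).2, stT]

theorem app_split {a b c d : List α} (e : a ++ b = c ++ d) (h : c.length ≤ a.length) :
    ∃ y, a = c ++ y ∧ d = y ++ b := by
  rcases List.append_eq_append_iff.1 e with ⟨y, h1, h2⟩ | ⟨y, h1, h2⟩
  · have := congrArg List.length h1
    have hy : y = [] := List.eq_nil_of_length_eq_zero (by simp at this; omega)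
    subst hy
    exact ⟨[], by simpa using h1.symm, by simpa using h2.symm⟩
  · exact ⟨y, h1, h2⟩

theorem valid_true {y' r : List α} {lb : List (p.CW φ)} (hn : p.NoVL (p.kd φ) lb)
    (e : y' ++ r = p.flat φ lb) (hl : p.Lam * p.W + p.W ≤ y'.length) : p.Valid φ y' := by
  obtain ⟨xr, y, rfl, h1, h2⟩ := split_run (p.kd φ) lb
  have h3 := NoVL.short p hn h1
  have h4 := p.flat_lenR φ xr h1
  have h5 : xr.length * p.W ≤ p.Lam * p.W := Nat.mul_le_mul_right _ h3.le
  have hW := p.W_pos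
  rw [flat_append] at e
  obtain ⟨z, rfl, e2⟩ := app_split e (by omega)
  simp only [List.length_append] at hl
  refine ⟨xr, z, h1, h3, by omega, ?_, rfl⟩
  rcases h2 with rfl | ⟨z0, l', rfl, hz⟩
  · have := congrArg List.length e2
    simp at this
    omega
  · have hT := (p.kd_T φ hz).1
    have := p.W_lt_L0
    rw [← p.noRet_append φ r (by omega), ← e2, flat_cons,
      p.noRet_append φ _ (by have := hT.len; omega)]
    exact hT.1

theorem decode3 {h0 h : p.HC} {t : p.T} {x1 x2 y r : List α} {lb : List (p.CW φ)}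
    (ht : p.IsTrue φ h0 t x1) (hx : p.IsT φ (x1 ++ x2)) (hn : p.NoVL (p.kd φ) lb)
    (e : y ++ r = x2 ++ p.flat φ lb) (hl : p.Lmin ≤ y.length) (ha : p.Acc φ h y) :
    p.outT φ h y = p.stT t (ev φ (x1 ++ x2)) ∧ y.drop (p.beta φ h y) ++ r = p.flat φ lb := by
  have h1 := hx.len.2
  unfold Lmin at hl
  simp only [List.length_append] at h1
  obtain ⟨y', rfl, e2⟩ := app_split e (by omega)
  obtain ⟨b1, b2⟩ := p.true_beta φ ht hx y'
  simp only [List.length_append] at hl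
  have hv := p.valid_true φ hn e2.symm (by omega)
  have hh : h0 = h := by
    by_contra hne
    apply ha h0 hne
    rw [b1, List.drop_left]
    exact hv
  subst hh
  exact ⟨b2, by rw [b1, List.drop_left, e2]⟩

theorem head_next {h : p.HC} {t : p.T} {z r : List α} {l lb : List (p.CW φ)}
    (ht : p.IsTrue φ h t z) (e : p.flat φ l ++ z ++ r = p.flat φ lb) :
    ∃ x x2 l3, lb = l ++ x :: l3 ∧ p.kd φ x ≠ none ∧ x.1 = z ++ x2 ∧ r = x2 ++ p.flat φ l3 := by
  rw [List.append_assoc] at e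
  obtain ⟨l3, rfl, e2⟩ := p.flat_cancel φ e
  have hz : p.W ≤ z.length := ht.2.2.2.1 ▸ p.W_le_cpos _ _
  have hz2 : z.length ≤ p.L0 := ht.2.2.2.1 ▸ p.cpos_le_L0 _ _
  have hW := p.W_pos
  cases l3 with
  | nil =>
    have := congrArg List.length e2
    simp only [flat_nil, List.length_append, List.length_nil] at this
    omega
  | cons x l3 =>
    rw [flat_cons] at e2
    have hk : p.kd φ x ≠ none := fun hk =>
      p.not_R_of_noRet φ ((p.kd_none φ).1 hk) ht.1 hz e2.symm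
    obtain ⟨x2, e3, e4⟩ := app_split e2.symm (hz2.trans (p.kd_T φ hk).1.len.1)
    exact ⟨x, x2, l3, rfl, hk, e3, e4⟩

theorem tail3_sound {t' : p.T} (S : List (List α)) (hS : ∀ z ∈ S, p.K3 φ z) {e : List α}
    (he : p.En3 φ t' e) (h0 : p.HC) (t : p.T) (x1 x2 : List α) (lb : List (p.CW φ))
    (ht : p.IsTrue φ h0 t x1) (hx : p.IsT φ (x1 ++ x2)) (hn : p.NoVL (p.kd φ) lb)
    (eq : S.flatten ++ e = x2 ++ p.flat φ lb) :
    p.run (p.kd φ) (p.stT t (ev φ (x1 ++ x2))) lb = t' := by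
  induction S generalizing h0 t x1 x2 lb with
  | nil =>
    obtain ⟨a1, _, h, l, a3, a4, a5⟩ := he
    obtain ⟨b1, b2⟩ := p.decode3 φ (r := []) ht hx hn (by simpa using eq) a1 a3
    rw [a4, List.append_nil] at b2
    rw [← b1, ← p.flat_inj φ b2, a5]
  | cons y S ih =>
    obtain ⟨a1, _, h, l, z, a3, a4, h', a5⟩ := hS y (by simp)
    rw [List.flatten_cons, List.append_assoc] at eq
    obtain ⟨b1, b2⟩ := p.decode3 φ ht hx hn eq a1 a3
    rw [a4] at b2
    obtain ⟨x, x2', l3, rfl, c1, c2, c3⟩ := p.head_next φ a5 b2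
    have := ih (fun z hz => hS z (by simp [hz])) h' _ z x2' l3 a5 (c2 ▸ (p.kd_T φ c1).1)
      (NoVL.right p (a := l ++ [x]) (by simpa using hn)) c3
    rw [run_append, run_cons, p.step_T φ c1, c2, ← b1, this]

theorem B3_sound {s t : p.T} {l : List (p.CW φ)} (hn : p.NoVL (p.kd φ) l)
    (h : p.B3 φ s t (p.flat φ l)) : p.run (p.kd φ) s l = t := by
  rcases h with ⟨_, l', e, h⟩ | ⟨_, _, ⟨_, l1, z, rfl, h', a1⟩, ⟨_, e, ⟨S, hS, rfl⟩, he, rfl⟩, eq⟩
  · rw [p.flat_inj φ e, h]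
  · obtain ⟨x, x2', l3, rfl, c1, c2, c3⟩ := p.head_next φ a1 eq.symm
    have := p.tail3_sound φ S hS he h' _ z x2' l3 a1 (c2 ▸ (p.kd_T φ c1).1)
      (NoVL.right p (a := l1 ++ [x]) (by simpa using hn)) c3
    rw [run_append, run_cons, p.step_T φ c1, c2, this]

theorem cutlen (l : List (p.CW φ)) (A : ℕ) (h : A ≤ (p.flat φ l).length) :
    ∃ la lb, l = la ++ lb ∧ A ≤ (p.flat φ la).length ∧ (p.flat φ la).length ≤ A + p.Lc := by
  induction l generalizing A with
  | nil => exact ⟨[], [], rfl, h, by simp⟩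
  | cons x l ih =>
    have hx := x.2.len
    by_cases h1 : A ≤ x.1.length
    · exact ⟨[x], l, rfl, by simpa using h1, by simp; omega⟩
    · obtain ⟨la, lb, rfl, h2, h3⟩ := ih (A - x.1.length) (by simp at h; omega)
      exact ⟨x :: la, lb, rfl, by simp; omega, by simp; omega⟩

theorem find_T (l : List (p.CW φ)) (hn : p.NoVL (p.kd φ) l) (A : ℕ)
    (h : A + p.Lc + p.Lam * p.W < (p.flat φ l).length) :
    ∃ l1 x l2, l = l1 ++ x :: l2 ∧ p.kd φ x ≠ none ∧ A ≤ (p.flat φ l1).length ∧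
      (p.flat φ l1).length ≤ A + p.Lc + p.Lam * p.W := by
  obtain ⟨la, lb, rfl, h2, h3⟩ := p.cutlen φ l A (by omega)
  obtain ⟨xr, y, rfl, h4, h5⟩ := split_run (p.kd φ) lb
  have h6 := NoVL.short p (NoVL.right p hn) h4
  have h7 := p.flat_lenR φ xr h4
  have h8 : xr.length * p.W ≤ p.Lam * p.W := Nat.mul_le_mul_right _ h6.le
  rcases h5 with rfl | ⟨z0, l', rfl, hz⟩
  · simp only [flat_append, List.append_nil, List.length_append] at h
    omega
  · refine ⟨la ++ xr, z0, l', by simp, hz, ?_, ?_⟩ <;>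
      simp only [flat_append, List.length_append] <;> omega

theorem Acc.left {p : Par G} {φ : α → G} {h : p.HC} {y r : List α} (ha : p.Acc φ h (y ++ r))
    (hy : p.L0 ≤ y.length) : p.Acc φ h y := by
  intro h' hne hv
  apply ha h' hne
  rw [p.beta_append φ h' y r hy]
  have hb : p.beta φ h' y ≤ y.length := by
    by_contra hlt
    obtain ⟨l, z, _, _, a3, _, a5⟩ := hv
    have := congrArg List.length a5
    have := p.W_pos
    simp at *
    omega
  rw [List.drop_append_of_le_length hb]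
  exact hv.append r

theorem tail3_complete (lb : List (p.CW φ)) (hn : p.NoVL (p.kd φ) lb)
    (hl : p.Lmin ≤ (p.flat φ lb).length) (t : p.T) (x : List α) (hx : p.IsT φ x) :
    ∃ x1 x2, x = x1 ++ x2 ∧ p.HeadC φ t x1 ∧
      p.Tail3 φ (p.run (p.kd φ) (p.stT t (ev φ x)) lb) (x2 ++ p.flat φ lb) := by
  induction hN : lb.length using Nat.strong_induction_on generalizing lb t x with
  | _ N ih =>
    obtain ⟨x1, x2, h, rfl, ht, ha⟩ := p.unblocked φ x hx t (p.flat φ lb)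
    refine ⟨x1, x2, rfl, ⟨h, ht⟩, ?_⟩
    have hlen := hx.len.2
    simp only [List.length_append] at hlen
    by_cases hs : (p.flat φ lb).length + p.Lc ≤ p.Lbig
    · obtain ⟨b1, b2⟩ := p.true_beta φ ht hx (p.flat φ lb)
      refine ⟨[], _, ⟨[], by simp, rfl⟩, ⟨by simp; omega, by simp; omega, h, lb, ha, ?_, ?_⟩, rfl⟩
      · rw [b1, List.drop_left]
      · rw [b2]
    · unfold Lbig at hs
      obtain ⟨l1, x', l2, rfl, c1, c2, c3⟩ := p.find_T φ lb hn p.Lmin (by omega)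
      have hx' := (p.kd_T φ c1).1
      have hlen' := hx'.len.2
      simp only [flat_append, flat_cons, List.length_append] at hs
      obtain ⟨y1, y2, e1, e2, _, e', ⟨S, hS, rfl⟩, e4, e5⟩ := ih l2.length (by rw [← hN]; simp; omega)
        l2 (NoVL.right p (a := l1 ++ [x']) (by simpa using hn)) (by omega)
        (p.run (p.kd φ) (p.stT t (ev φ (x1 ++ x2))) l1) x'.1 hx' rfl
      obtain ⟨b1, b2⟩ := p.true_beta φ ht hx (p.flat φ l1 ++ y1)
      have hy1 : y1.length ≤ x'.1.length := by rw [e1]; simp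
      have hL : p.L0 ≤ p.Lmin := by
        unfold Lmin Lc
        omega
      have eq : x2 ++ p.flat φ (l1 ++ x' :: l2) = (x2 ++ (p.flat φ l1 ++ y1)) ++ (S.flatten ++ e') := by
        rw [flat_append, flat_cons, e1, ← e5]
        simp
      refine ⟨((x2 ++ (p.flat φ l1 ++ y1)) :: S).flatten, e', ⟨_, ?_, rfl⟩, ?_, by rw [eq]; simp⟩
      · intro w hw
        rcases List.mem_cons.1 hw with rfl | hw
        · refine ⟨by simp; omega, by unfold Lbig; simp; omega, h, l1, y1, ?_, ?_, ?_⟩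
          · rw [eq] at ha
            exact ha.left (by simp; omega)
          · rw [b1, List.drop_left]
          · rw [b2]
            exact e2
        · exact hS w hw
      · rw [run_append, run_cons, p.step_T φ c1]
        exact e4

theorem B3_complete (s : p.T) (l : List (p.CW φ)) (hn : p.NoVL (p.kd φ) l) :
    p.B3 φ s (p.run (p.kd φ) s l) (p.flat φ l) := by
  by_cases hs : (p.flat φ l).length ≤ p.Lbig
  · exact Or.inl ⟨hs, l, rfl, rfl⟩
  right
  unfold Lbig at hs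
  obtain ⟨l1, x', l2, rfl, c1, c2, c3⟩ := p.find_T φ l hn 0 (by omega)
  have hx' := (p.kd_T φ c1).1
  have hlen' := hx'.len.2
  simp only [flat_append, flat_cons, List.length_append] at hs
  obtain ⟨y1, y2, e1, e2, e3⟩ := p.tail3_complete φ l2
    (NoVL.right p (a := l1 ++ [x']) (by simpa using hn)) (by omega) (p.run (p.kd φ) s l1) x'.1 hx'
  have hy1 : y1.length ≤ x'.1.length := by rw [e1]; simp
  refine ⟨p.flat φ l1 ++ y1, y2 ++ p.flat φ l2, ⟨by unfold Lbig; simp; omega, l1, y1, rfl, e2⟩, ?_, ?_⟩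
  · rw [run_append, run_cons, p.step_T φ c1]
    exact e3
  · rw [flat_append, flat_cons, e1]
    simp

theorem base [Finite α] (s t : p.T) :
    p.PC φ 1 (fun l => p.NoVL (p.kd φ) l ∧ p.run (p.kd φ) s l = t) := by
  have hP := p.graded φ
  have h1 : p.PC φ 1 (fun v => AllR (p.kd φ) v ∧ v.length = p.Lam) :=
    hP.bounded 1 p.Lam _ (fun w h => h.2.le)
  have h2 : p.PC φ 1 (p.NoVL (p.kd φ)) := by
    refine hP.congr (hP.not le_rfl (hP.mul (hP.top le_rfl) (hP.mul h1 (hP.top le_rfl))))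
      (fun w => not_congr ?_)
    constructor
    · rintro ⟨a, _, _, ⟨v, b, hv, _, rfl⟩, rfl⟩
      exact ⟨a, v, b, rfl, hv⟩
    · rintro ⟨a, v, b, rfl, hv⟩
      exact ⟨a, _, trivial, ⟨v, b, hv, trivial, rfl⟩, rfl⟩
  refine (Ht.and h2 (p.ht_B3 φ s t)).congr (fun w => ?_)
  constructor
  · rintro ⟨⟨l, hn, rfl⟩, hb⟩
    exact ⟨l, ⟨hn, p.B3_sound φ hn hb⟩, rfl⟩
  · rintro ⟨l, ⟨hn, rfl⟩, rfl⟩
    exact ⟨⟨l, hn, rfl⟩, p.B3_complete φ s l hn⟩

theorem pair_iff {Γ : Type} [DecidableEq G] (kind : Γ → Option G) (l : List Γ) (q : G) :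
    (p.run kind (0, 0) l).1 q ≠ (p.run kind (Pi.single 1 1, 0) l).1 q ↔ q = gval kind l := by
  obtain ⟨F, k', h1, h2⟩ := p.coord kind l 0
  have : Fact (1 < p.r) := ⟨p.two_le⟩
  rw [h2, h2]
  simp only [Ne, (h1 q).eq_iff, Pi.zero_apply, Pi.single_apply, mul_inv_eq_one]
  by_cases h : q = gval kind l <;> simp [h]

theorem ht_ev [Finite α] (g : G) : Ht 3 (fun w => ev φ w = g) := by
  classical
  obtain ⟨p⟩ := exists_par G
  have hP := p.graded φ
  have hL := p.levels (p.kd φ) hP (p.base φ)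
  have h1 : ∀ (t t' : p.T) (q : G), Ht 3 (fun w => t.1 q ≠ t'.1 q ∧ ∃ x z,
      (∃ l, (p.run (p.kd φ) (0, 0) l = t ∧ p.run (p.kd φ) (Pi.single 1 1, 0) l = t') ∧
        x = p.flat φ l) ∧ (z.length < p.Lc ∧ q * ev φ z = g) ∧ w = x ++ z) :=
    fun t t' q => Ht.andConst _ (Ht.mul (hP.and (by norm_num) (hL _ t) (hL _ t'))
      (Ht.bounded 3 p.Lc (fun _ h => h.1.le)))
  refine (Ht.ex fun t => Ht.ex fun t' => Ht.ex fun q => h1 t t' q).congr (fun w => ?_)
  constructor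
  · rintro ⟨_, _, q, h2, _, z, ⟨l, ⟨rfl, rfl⟩, rfl⟩, ⟨_, h3⟩, rfl⟩
    rw [ev_append, ev_flat, ← (p.pair_iff _ l q).1 h2, h3]
  · intro h
    obtain ⟨l, z, rfl, hz⟩ := p.parse φ w
    refine ⟨_, _, gval (p.kd φ) l, (p.pair_iff _ l _).2 rfl, _, z, ⟨l, ⟨rfl, rfl⟩, rfl⟩, ⟨hz, ?_⟩, rfl⟩
    rw [← h, ev_append, ev_flat]

end Par

theorem GroupLang.ht {α : Type} [Finite α] {L : Language α} (h : GroupLang L) :
    Ht 3 (fun w => w ∈ L) := by
  classical
  obtain ⟨G, _, _, φ, hφ⟩ := h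
  have := Fintype.ofFinite G
  have e : ∀ w : List α, φ (FreeMonoid.ofList w) = Par.ev (fun a => φ (FreeMonoid.of a)) w := by
    intro w
    induction w with
    | nil => simp
    | cons a w ih =>
      rw [FreeMonoid.ofList_cons, map_mul, ih]
      simp [Par.ev]
  refine (Ht.ex fun g : G => Ht.andConst (∃ u ∈ L, φ (FreeMonoid.ofList u) = g)
    (Par.ht_ev (fun a => φ (FreeMonoid.of a)) g)).congr (fun w => ?_)
  constructor
  · rintro ⟨g, ⟨u, hu, rfl⟩, h2⟩
    exact (hφ u w (by rw [e w, h2])).1 hu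
  · intro h
    exact ⟨_, ⟨w, h, rfl⟩, (e w).symm⟩

theorem GroupClosure.ht {α : Type} [Finite α] {L : Language α} (h : GroupClosure L) :
    Ht 3 (fun w => w ∈ L) := by
  induction h with
  | group L h => exact h.ht
  | letter a => exact Ht.letter 3 a
  | union L K _ _ h1 h2 => exact (h1.or h2).congr (fun w => (Language.mem_add L K w).symm)
  | compl L _ h1 => exact h1.not
  | concat L K _ _ h1 h2 =>
    refine (h1.mul h2).congr (fun w => ?_)
    rw [Language.mem_mul]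
    constructor
    · rintro ⟨x, y, hx, hy, rfl⟩
      exact ⟨x, hx, y, hy, rfl⟩
    · rintro ⟨x, hx, y, hy, rfl⟩
      exact ⟨x, y, hx, hy, rfl⟩

end Vale.Agent.P329
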