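import Vale.Agent.P329.Levels

namespace Vale.Agent.P329

set_option linter.unusedSectionVars false

theorem digsum_lt (n : ℕ) (d : ℕ → ℕ) (hd : ∀ k, d k < n) (M : ℕ) :
    ∑ k ∈ Finset.range M, d k * n ^ k < n ^ M := by
  induction M with
  | zero => simp
  | succ M ih =>
    rw [Finset.sum_range_succ, pow_succ]
    have : (d M + 1) * n ^ M ≤ n * n ^ M := Nat.mul_le_mul_right _ (hd M)
    nlinarith

theorem digsum_inj (n : ℕ) (d d' : ℕ → ℕ) (hd : ∀ k, d k < n) (hd' : ∀ k, d' k < n) (M : ℕ)
    (e : ∑ k ∈ Finset.range M, d k * n ^ k = ∑ k ∈ Finset.range M, d' k * n ^ k) :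
    ∀ k < M, d k = d' k := by
  induction M with
  | zero => simp
  | succ M ih =>
    rw [Finset.sum_range_succ, Finset.sum_range_succ] at e
    have h1 := digsum_lt n d hd M
    have h2 := digsum_lt n d' hd' M
    have hM : d M = d' M := by
      by_contra hne
      rcases lt_or_gt_of_ne hne with h | h
      · have : (d M + 1) * n ^ M ≤ d' M * n ^ M := Nat.mul_le_mul_right _ h
        rw [add_mul] at this
        omega
      · have : (d' M + 1) * n ^ M ≤ d M * n ^ M := Nat.mul_le_mul_right _ h
        rw [add_mul] at this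
        omega
    rw [hM] at e
    intro k hk
    rcases Nat.lt_succ_iff_lt_or_eq.1 hk with h | rfl
    · exact ih (by omega) k h
    · exact hM

namespace Par

variable {G : Type} [Fintype G] [Group G] (p : Par G) {α : Type} (φ : α → G)

def ev (w : List α) : G := (w.map φ).prod

@[simp] theorem ev_nil : ev φ [] = 1 := rfl
theorem ev_append (a b : List α) : ev φ (a ++ b) = ev φ a * ev φ b := by simp [ev]

noncomputable def dig (g : G) : ℕ := (Fintype.equivFin G g : ℕ)

theorem dig_lt (g : G) : dig g < Fintype.card G := (Fintype.equivFin G g).2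

theorem dig_inj {g g' : G} (h : dig g = dig g') : g = g' :=
  (Fintype.equivFin G).injective (Fin.ext h)

/-- number of zones -/
noncomputable def nz : ℕ := Fintype.card G * p.Lam + 1

noncomputable def cs : ℕ := Fintype.card G ^ p.nz

abbrev Msg : Type := p.T × Fin p.cs

noncomputable def nm : ℕ := Nat.card p.Msg

noncomputable def U : ℕ := 2 * p.cs

noncomputable def KK : ℕ := p.U * 2 ^ (p.nz * p.nm)

noncomputable def W : ℕ := 2 * p.KK + p.U

noncomputable def L0 : ℕ := p.W + p.KK

noncomputable def Lc : ℕ := p.L0 + p.cs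

noncomputable def ze (k : ℕ) : ℕ := p.W + p.U * 2 ^ ((k + 1) * p.nm)

noncomputable def ix (i : Fin p.nz) (m : p.Msg) : ℕ := i * p.nm + (Finite.equivFin p.Msg m : ℕ)

noncomputable def cpos (i : Fin p.nz) (m : p.Msg) : ℕ := p.W + p.U * 2 ^ p.ix i m

theorem cs_pos : 0 < p.cs := by
  have : 0 < Fintype.card G := Fintype.card_pos
  unfold cs
  positivity

theorem U_pos : 0 < p.U := by
  have := p.cs_pos
  unfold U
  omega

theorem KK_pos : 0 < p.KK := by
  have := p.U_pos
  unfold KK
  positivity

theorem W_pos : 0 < p.W := by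
  have := p.U_pos
  unfold W
  omega

theorem ix_lt (i : Fin p.nz) (m : p.Msg) : p.ix i m < (i + 1) * p.nm := by
  have : (Finite.equivFin p.Msg m : ℕ) < p.nm := (Finite.equivFin p.Msg m).2
  unfold ix
  rw [add_mul]
  omega

theorem ix_inj {i j : Fin p.nz} {m m' : p.Msg} (h : p.ix i m = p.ix j m') : i = j ∧ m = m' := by
  have h1 : (Finite.equivFin p.Msg m : ℕ) < p.nm := (Finite.equivFin p.Msg m).2
  have h2 : (Finite.equivFin p.Msg m' : ℕ) < p.nm := (Finite.equivFin p.Msg m').2
  unfold ix at h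
  have hij : (i : ℕ) = j := by
    by_contra hne
    rcases lt_or_gt_of_ne hne with h' | h'
    · have : (i + 1) * p.nm ≤ j * p.nm := Nat.mul_le_mul_right _ h'
      nlinarith
    · have : (j + 1) * p.nm ≤ i * p.nm := Nat.mul_le_mul_right _ h'
      nlinarith
  rw [hij] at h
  exact ⟨Fin.ext hij, (Finite.equivFin p.Msg).injective (Fin.ext (by omega))⟩

theorem ze_le_L0 {k : ℕ} (hk : k < p.nz) : p.ze k ≤ p.L0 := by
  unfold ze L0 KK
  have : 2 ^ ((k + 1) * p.nm) ≤ 2 ^ (p.nz * p.nm) :=
    Nat.pow_le_pow_right (by norm_num) (Nat.mul_le_mul_right _ hk)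
  have := Nat.mul_le_mul_left p.U this
  omega

theorem cpos_le_ze (i : Fin p.nz) (m : p.Msg) {k : ℕ} (hk : (i : ℕ) ≤ k) : p.cpos i m ≤ p.ze k := by
  unfold cpos ze
  have h1 := p.ix_lt i m
  have h2 : ((i : ℕ) + 1) * p.nm ≤ (k + 1) * p.nm := Nat.mul_le_mul_right _ (by omega)
  have : 2 ^ p.ix i m ≤ 2 ^ ((k + 1) * p.nm) := Nat.pow_le_pow_right (by norm_num) (by omega)
  have := Nat.mul_le_mul_left p.U this
  omega

theorem ze_le_cpos (i : Fin p.nz) (m : p.Msg) {k : ℕ} (hk : k < i) : p.ze k ≤ p.cpos i m := by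
  unfold cpos ze
  have h2 : (k + 1) * p.nm ≤ i * p.nm := Nat.mul_le_mul_right _ hk
  have : 2 ^ ((k + 1) * p.nm) ≤ 2 ^ p.ix i m :=
    Nat.pow_le_pow_right (by norm_num) (by unfold ix; omega)
  have := Nat.mul_le_mul_left p.U this
  omega

theorem cpos_le_L0 (i : Fin p.nz) (m : p.Msg) : p.cpos i m ≤ p.L0 :=
  (p.cpos_le_ze i m le_rfl).trans (p.ze_le_L0 i.2)

theorem W_le_cpos (i : Fin p.nz) (m : p.Msg) : p.W ≤ p.cpos i m := Nat.le_add_right _ _

/-- checksum -/
noncomputable def chk (x : List α) (i : ℕ) : ℕ :=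
  ∑ k ∈ Finset.range i, dig (ev φ (x.take (p.ze k))) * Fintype.card G ^ k

theorem chk_lt (x : List α) {i : ℕ} (hi : i ≤ p.nz) : p.chk φ x i < p.cs :=
  (digsum_lt _ _ (fun _ => dig_lt _) i).trans_le (Nat.pow_le_pow_right Fintype.card_pos hi)

theorem chk_append (x b : List α) (i : ℕ) (h : ∀ k < i, p.ze k ≤ x.length) :
    p.chk φ (x ++ b) i = p.chk φ x i := by
  apply Finset.sum_congr rfl
  intro k hk
  rw [List.take_append_of_le_length (h k (Finset.mem_range.1 hk))]

def NoRet (z : List α) : Prop := ∀ γ, 0 < γ → γ ≤ p.W → ev φ (z.take γ) ≠ 1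

def IsR (x : List α) : Prop :=
  0 < x.length ∧ x.length ≤ p.W ∧ ev φ x = 1 ∧ ∀ γ, 0 < γ → γ < x.length → ev φ (x.take γ) ≠ 1

def IsT (x : List α) : Prop := p.NoRet φ x ∧ x.length = p.L0 + p.chk φ x p.nz

def Code (x : List α) : Prop := p.IsR φ x ∨ p.IsT φ x

theorem noRet_append {z : List α} (b : List α) (hz : p.W ≤ z.length) :
    p.NoRet φ (z ++ b) ↔ p.NoRet φ z := by
  unfold NoRet
  refine forall_congr' fun γ => forall_congr' fun _ => forall_congr' fun h => ?_
  rw [List.take_append_of_le_length (h.trans hz)]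

theorem W_lt_L0 : p.W < p.L0 := by
  have := p.KK_pos
  unfold L0
  omega

theorem IsT.len {p : Par G} {φ : α → G} {x : List α} (h : p.IsT φ x) :
    p.L0 ≤ x.length ∧ x.length < p.Lc := by
  have := p.chk_lt φ x le_rfl
  have := h.2
  unfold Lc
  omega

theorem Code.len {p : Par G} {φ : α → G} {x : List α} (h : p.Code φ x) :
    0 < x.length ∧ x.length < p.Lc := by
  have := p.W_lt_L0
  rcases h with h | h
  · have := h.2.1
    unfold Lc
    exact ⟨h.1, by omega⟩
  · have := h.len
    omega

theorem not_R_of_noRet {x z a b : List α} (hx : p.IsR φ x) (hz : p.NoRet φ z)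
    (hW : p.W ≤ z.length) (e : x ++ a = z ++ b) : False := by
  apply hz x.length hx.1 hx.2.1
  have h1 := congrArg (List.take x.length) e
  rw [List.take_left, List.take_append_of_le_length (hx.2.1.trans hW)] at h1
  rw [← h1]
  exact hx.2.2.1

theorem code_unique {x y a b : List α} (hx : p.Code φ x) (hy : p.Code φ y) (e : x ++ a = y ++ b) :
    x = y := by
  have key : ∀ {x c : List α}, p.Code φ x → p.Code φ (x ++ c) → c = [] := by
    intro x c hx hy
    have hW := p.W_lt_L0
    by_contra hc
    have hc' := List.length_pos_iff.2 hc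
    rcases hx with hx | hx <;> rcases hy with hy | hy
    · refine hy.2.2.2 x.length hx.1 (by simp; omega) ?_
      rw [List.take_left]
      exact hx.2.2.1
    · exact p.not_R_of_noRet φ hx hy.1 (by have := hy.len; omega) (List.append_nil _).symm
    · have := hx.len
      have := hy.2.1
      simp at this
      omega
    · have h1 := hy.2
      rw [p.chk_append φ x c _ (fun k hk => (p.ze_le_L0 hk).trans hx.len.1), ← hx.2] at h1
      simp at h1
      exact hc h1
  rcases List.append_eq_append_iff.1 e with ⟨c, rfl, _⟩ | ⟨c, rfl, _⟩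
  · rw [key hx hy]
    simp
  · rw [key hy hx]
    simp

theorem parse_one (w : List α) (hw : p.Lc ≤ w.length) : ∃ x b, p.Code φ x ∧ w = x ++ b := by
  classical
  have hW := p.W_lt_L0
  have hLc : p.L0 ≤ p.Lc := Nat.le_add_right _ _
  by_cases h : ∃ γ, 0 < γ ∧ γ ≤ p.W ∧ ev φ (w.take γ) = 1
  · obtain ⟨h1, h2, h3⟩ := Nat.find_spec h
    have hl : (w.take (Nat.find h)).length = Nat.find h := by
      rw [List.length_take]
      omega
    refine ⟨w.take (Nat.find h), w.drop (Nat.find h), Or.inl ⟨by omega, by omega, h3, ?_⟩, by simp⟩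
    intro γ g1 g2 g3
    rw [hl] at g2
    rw [List.take_take, min_eq_left g2.le] at g3
    exact Nat.find_min h g2 ⟨g1, by omega, g3⟩
  · have hc := p.chk_lt φ w le_rfl
    have hl : (w.take (p.L0 + p.chk φ w p.nz)).length = p.L0 + p.chk φ w p.nz := by
      unfold Lc at hw
      simp
      omega
    have e : w = w.take (p.L0 + p.chk φ w p.nz) ++ w.drop (p.L0 + p.chk φ w p.nz) := by simp
    refine ⟨_, _, Or.inr ⟨?_, ?_⟩, e⟩
    · rw [← p.noRet_append φ (w.drop (p.L0 + p.chk φ w p.nz)) (by omega), ← e]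
      intro γ g1 g2 g3
      exact h ⟨γ, g1, g2, g3⟩
    · have := p.chk_append φ (w.take (p.L0 + p.chk φ w p.nz)) (w.drop (p.L0 + p.chk φ w p.nz)) p.nz
        (fun k hk => (p.ze_le_L0 hk).trans (by omega))
      rw [← e] at this
      rw [hl, ← this]

/-- coarse letters -/
abbrev CW : Type := {x : List α // p.Code φ x}

noncomputable def kd (x : p.CW φ) : Option G := by
  classical
  exact if p.IsR φ x.1 then none else some (ev φ x.1)

def flat (l : List (p.CW φ)) : List α := (l.map Subtype.val).flatten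

@[simp] theorem flat_nil : p.flat φ [] = [] := rfl
@[simp] theorem flat_cons (x : p.CW φ) (l : List (p.CW φ)) :
    p.flat φ (x :: l) = x.1 ++ p.flat φ l := rfl
theorem flat_append (a b : List (p.CW φ)) : p.flat φ (a ++ b) = p.flat φ a ++ p.flat φ b := by
  simp [flat]

theorem kd_none {x : p.CW φ} : p.kd φ x = none ↔ p.IsR φ x.1 := by
  unfold kd
  split_ifs with h <;> simp [h]

theorem kd_T {x : p.CW φ} (h : p.kd φ x ≠ none) : p.IsT φ x.1 ∧ p.kd φ x = some (ev φ x.1) := by
  rw [Ne, kd_none] at h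
  exact ⟨x.2.resolve_left h, by simp [kd, h]⟩

theorem ev_flat (l : List (p.CW φ)) : ev φ (p.flat φ l) = gval (p.kd φ) l := by
  induction l with
  | nil => rfl
  | cons x l ih =>
    rw [flat_cons, ev_append, ih]
    simp only [gval, List.map_cons, List.prod_cons]
    congr 1
    by_cases h : p.kd φ x = none
    · rw [h, ((p.kd_none φ).1 h).2.2.1]
      rfl
    · rw [(p.kd_T φ h).2]
      rfl

theorem flat_cancel {l1 l2 : List (p.CW φ)} {a : List α} (e : p.flat φ l1 ++ a = p.flat φ l2) :
    ∃ l3, l2 = l1 ++ l3 ∧ a = p.flat φ l3 := by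
  induction l1 generalizing l2 with
  | nil => exact ⟨l2, rfl, e⟩
  | cons x l1 ih =>
    cases l2 with
    | nil =>
      have h1 := congrArg List.length e
      have h2 := x.2.len
      simp only [flat_cons, flat_nil, List.length_append, List.length_nil] at h1
      omega
    | cons y l2 =>
      simp only [flat_cons, List.append_assoc] at e
      have hxy : x = y := Subtype.ext (p.code_unique φ x.2 y.2 e)
      subst hxy
      obtain ⟨l3, rfl, h⟩ := ih (List.append_cancel_left e)
      exact ⟨l3, rfl, h⟩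

theorem flat_inj {l1 l2 : List (p.CW φ)} (e : p.flat φ l1 = p.flat φ l2) : l1 = l2 := by
  obtain ⟨l3, rfl, h⟩ := p.flat_cancel φ (a := []) (l1 := l1) (l2 := l2) (by simpa using e)
  cases l3 with
  | nil => simp
  | cons x l3 =>
    have := congrArg List.length h
    have := x.2.len
    simp at *
    omega

theorem flat_len (l : List (p.CW φ)) : (p.flat φ l).length ≤ l.length * p.Lc := by
  induction l with
  | nil => simp
  | cons x l ih =>
    have := x.2.len
    simp only [flat_cons, List.length_append, List.length_cons, add_mul]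
    omega

theorem flat_lenR (l : List (p.CW φ)) (h : AllR (p.kd φ) l) :
    (p.flat φ l).length ≤ l.length * p.W := by
  induction l with
  | nil => simp
  | cons x l ih =>
    have := ((p.kd_none φ).1 (h x (by simp))).2.1
    have := ih (fun y hy => h y (by simp [hy]))
    simp only [flat_cons, List.length_append, List.length_cons, add_mul]
    omega

theorem parse (w : List α) : ∃ l z, w = p.flat φ l ++ z ∧ z.length < p.Lc := by
  induction hN : w.length using Nat.strong_induction_on generalizing w with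
  | _ N ih =>
    by_cases h : w.length < p.Lc
    · exact ⟨[], w, rfl, h⟩
    · obtain ⟨x, b, hx, rfl⟩ := p.parse_one φ w (by omega)
      have := hx.len
      obtain ⟨l, z, rfl, hz⟩ := ih b.length (by rw [← hN]; simp; omega) b rfl
      exact ⟨⟨x, hx⟩ :: l, z, by simp, hz⟩

/-- height of the set of concatenations -/
def PC (k : ℕ) (L : List (p.CW φ) → Prop) : Prop := Ht k (fun w => ∃ l, L l ∧ w = p.flat φ l)

theorem flat_flatten (S : List (List (p.CW φ))) :
    p.flat φ S.flatten = (S.map (p.flat φ)).flatten := by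
  induction S with
  | nil => rfl
  | cons y S ih => simp [flat_append, ih]

theorem graded [Finite α] : Graded (p.PC φ) where
  mono h hk := Ht.mono h hk
  congr h e := Ht.congr h (fun w => by simp only [e])
  bot k := (Ht.bot k).congr (by simp)
  or h h' := (Ht.or h h').congr (fun w => by simp only [or_and_right, exists_or])
  not := by
    intro k L hk h
    have h0 : Ht 0 (p.Code φ) := Ht.bounded 0 p.Lc (fun w hw => hw.len.2.le)
    refine ((h0.star.mono hk).and (Ht.not h)).congr (fun w => ?_)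
    constructor
    · rintro ⟨⟨S, hS, rfl⟩, h2⟩
      have e : S.flatten = p.flat φ (S.attach.map (fun y => ⟨y.1, hS y.1 y.2⟩)) := by
        simp [flat, Function.comp_def]
      exact ⟨_, fun h3 => h2 ⟨_, h3, e⟩, e⟩
    · rintro ⟨l, h1, rfl⟩
      refine ⟨⟨l.map Subtype.val, ?_, rfl⟩, ?_⟩
      · intro y hy
        obtain ⟨x, _, rfl⟩ := List.mem_map.1 hy
        exact x.2
      · rintro ⟨l', h2, e⟩
        exact h1 (p.flat_inj φ e ▸ h2)
  mul := by
    intro k L K h h'
    refine (Ht.mul h h').congr (fun w => ?_)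
    constructor
    · rintro ⟨_, _, ⟨a, ha, rfl⟩, ⟨b, hb, rfl⟩, rfl⟩
      exact ⟨a ++ b, ⟨a, b, ha, hb, rfl⟩, (p.flat_append φ a b).symm⟩
    · rintro ⟨_, ⟨a, b, ha, hb, rfl⟩, rfl⟩
      exact ⟨_, _, ⟨a, ha, rfl⟩, ⟨b, hb, rfl⟩, p.flat_append φ a b⟩
  star := by
    intro k L h
    refine (Ht.star h).congr (fun w => ?_)
    constructor
    · rintro ⟨S, hS, rfl⟩
      induction S with
      | nil => exact ⟨[], ⟨[], by simp, rfl⟩, rfl⟩
      | cons y S ih =>
        obtain ⟨_, ⟨S', h1, rfl⟩, h2⟩ := ih (fun z hz => hS z (by simp [hz]))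
        obtain ⟨l, h3, rfl⟩ := hS y (by simp)
        refine ⟨(l :: S').flatten, ⟨l :: S', ?_, rfl⟩, ?_⟩
        · intro z hz
          rcases List.mem_cons.1 hz with rfl | hz
          · exact h3
          · exact h1 z hz
        · rw [List.flatten_cons, List.flatten_cons, flat_append, h2]
    · rintro ⟨_, ⟨S, hS, rfl⟩, rfl⟩
      refine ⟨S.map (p.flat φ), ?_, p.flat_flatten φ S⟩
      intro y hy
      obtain ⟨x, hx, rfl⟩ := List.mem_map.1 hy
      exact ⟨x, hS x hx, rfl⟩
  bounded := by
    intro k N L h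
    refine Ht.bounded k (N * p.Lc) ?_
    rintro w ⟨l, hl, rfl⟩
    exact (p.flat_len φ l).trans (Nat.mul_le_mul_right _ (h l hl))

end Par

end Vale.Agent.P329
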