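import Mathlib

namespace Vale.Agent.P329

/-- Generalized regular expressions over the alphabet `α`. -/
inductive GRE (α : Type) : Type
  | zero : GRE α
  | one : GRE α
  | letter : α → GRE α
  | union : GRE α → GRE α → GRE α
  | concat : GRE α → GRE α → GRE α
  | compl : GRE α → GRE α
  | star : GRE α → GRE α

/-- The language denoted by an expression; the complement is taken in the set of all words. -/
def GRE.lang {α : Type} : GRE α → Language α
  | .zero => 0
  | .one => 1
  | .letter a => {w | w = [a]}
  | .union P Q => P.lang + Q.lang
  | .concat P Q => P.lang * Q.lang
  | .compl P => {w | w ∉ P.lang}
  | .star P => KStar.kstar P.lang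

/-- Star height. -/
def GRE.sh {α : Type} : GRE α → ℕ
  | .zero => 0
  | .one => 0
  | .letter _ => 0
  | .union P Q => max P.sh Q.sh
  | .concat P Q => max P.sh Q.sh
  | .compl P => P.sh
  | .star P => P.sh + 1

/-- `L` is recognized by a finite group: membership depends only on the image of the word under a
morphism from the free monoid to a finite group. -/
def GroupLang {α : Type} (L : Language α) : Prop :=
  ∃ (G : Type) (_ : Group G) (_ : Finite G) (φ : FreeMonoid α →* G),
    ∀ u v : List α, φ (FreeMonoid.ofList u) = φ (FreeMonoid.ofList v) → (u ∈ L ↔ v ∈ L)

/-- The least class of languages that contains the languages recognized by finite groups and the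
one-letter languages and is closed under union, complement and concatenation. -/
inductive GroupClosure {α : Type} : Language α → Prop
  | group (L : Language α) : GroupLang L → GroupClosure L
  | letter (a : α) : GroupClosure {w | w = [a]}
  | union (L K : Language α) : GroupClosure L → GroupClosure K → GroupClosure (L + K)
  | compl (L : Language α) : GroupClosure L → GroupClosure {w | w ∉ L}
  | concat (L K : Language α) : GroupClosure L → GroupClosure K → GroupClosure (L * K)

end Vale.Agent.P329
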