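import Vale.Agent.P329.Defs

namespace Vale.Agent.P329

variable {α : Type}

/-- height at most `k` -/
def Ht (k : ℕ) (L : List α → Prop) : Prop := ∃ P : GRE α, (∀ w, w ∈ P.lang ↔ L w) ∧ P.sh ≤ k

theorem Ht.mono {k m : ℕ} {L : List α → Prop} (h : Ht k L) (hk : k ≤ m) : Ht m L := by
  obtain ⟨P, h1, h2⟩ := h
  exact ⟨P, h1, h2.trans hk⟩

theorem Ht.congr {k : ℕ} {L K : List α → Prop} (h : Ht k L) (e : ∀ w, L w ↔ K w) : Ht k K := by
  obtain ⟨P, h1, h2⟩ := h
  exact ⟨P, fun w => (h1 w).trans (e w), h2⟩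

theorem Ht.bot (k : ℕ) : Ht k (fun _ : List α => False) :=
  ⟨.zero, fun w => by simp [GRE.lang], Nat.zero_le _⟩
theorem Ht.one (k : ℕ) : Ht k (fun w : List α => w = []) :=
  ⟨.one, fun w => by simp [GRE.lang], Nat.zero_le _⟩
theorem Ht.letter (k : ℕ) (a : α) : Ht k (fun w => w = [a]) :=
  ⟨.letter a, fun _ => Iff.rfl, Nat.zero_le _⟩

theorem Ht.or {k : ℕ} {L K : List α → Prop} (h : Ht k L) (h' : Ht k K) :
    Ht k (fun w => L w ∨ K w) := by
  obtain ⟨P, h1, h2⟩ := h
  obtain ⟨Q, h3, h4⟩ := h'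
  exact ⟨.union P Q, fun w => by simp [GRE.lang, Language.mem_add, h1, h3],
    by simp [GRE.sh, h2, h4]⟩

theorem Ht.mul {k : ℕ} {L K : List α → Prop} (h : Ht k L) (h' : Ht k K) :
    Ht k (fun w => ∃ x y, L x ∧ K y ∧ w = x ++ y) := by
  obtain ⟨P, h1, h2⟩ := h
  obtain ⟨Q, h3, h4⟩ := h'
  refine ⟨.concat P Q, fun w => ?_, by simp [GRE.sh, h2, h4]⟩
  simp only [GRE.lang, Language.mem_mul, h1, h3]
  constructor
  · rintro ⟨x, hx, y, hy, rfl⟩
    exact ⟨x, y, hx, hy, rfl⟩
  · rintro ⟨x, y, hx, hy, rfl⟩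
    exact ⟨x, hx, y, hy, rfl⟩

theorem Ht.not {k : ℕ} {L : List α → Prop} (h : Ht k L) : Ht k (fun w => ¬ L w) := by
  obtain ⟨P, h1, h2⟩ := h
  exact ⟨.compl P, fun w => not_congr (h1 w), by simp [GRE.sh, h2]⟩

theorem Ht.star {k : ℕ} {L : List α → Prop} (h : Ht k L) :
    Ht (k + 1) (fun w => ∃ S : List (List α), (∀ y ∈ S, L y) ∧ w = S.flatten) := by
  obtain ⟨P, h1, h2⟩ := h
  refine ⟨.star P, fun w => ?_, by simp [GRE.sh, h2]⟩
  simp only [GRE.lang, Language.mem_kstar, h1]
  constructor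
  · rintro ⟨S, e, hS⟩
    exact ⟨S, hS, e⟩
  · rintro ⟨S, hS, e⟩
    exact ⟨S, e, hS⟩

theorem Ht.single (k : ℕ) (u : List α) : Ht k (fun w => w = u) := by
  induction u with
  | nil => exact Ht.one k
  | cons a u ih =>
    refine ((Ht.letter k a).mul ih).congr (fun w => ?_)
    constructor
    · rintro ⟨x, y, rfl, rfl, rfl⟩
      rfl
    · rintro rfl
      exact ⟨[a], u, rfl, rfl, rfl⟩

theorem Ht.finite (k : ℕ) {s : Set (List α)} (h : s.Finite) : Ht k (fun w => w ∈ s) := by
  induction s, h using Set.Finite.induction_on with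
  | empty => exact (Ht.bot k).congr (by simp)
  | @insert u s _ _ ih => exact ((Ht.single k u).or ih).congr (fun w => by simp)

theorem Ht.bounded [Finite α] (k N : ℕ) {L : List α → Prop} (h : ∀ w, L w → w.length ≤ N) :
    Ht k L :=
  Ht.finite k (s := {w | L w}) ((List.finite_length_le α N).subset h)

theorem Ht.and {k : ℕ} {L K : List α → Prop} (h : Ht k L) (h' : Ht k K) :
    Ht k (fun w => L w ∧ K w) :=
  ((h.not.or h'.not).not).congr (fun w => by tauto)

theorem Ht.ex {ι : Type} [Finite ι] {k : ℕ} {L : ι → List α → Prop} (h : ∀ i, Ht k (L i)) :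
    Ht k (fun w => ∃ i, L i w) := by
  classical
  have := Fintype.ofFinite ι
  have key : ∀ s : Finset ι, Ht k (fun w => ∃ i ∈ s, L i w) := by
    intro s
    induction s using Finset.induction_on with
    | empty => exact (Ht.bot k).congr (by simp)
    | insert a s _ ih => exact ((h a).or ih).congr (by simp)
  exact (key Finset.univ).congr (by simp)

theorem Ht.andConst {k : ℕ} {L : List α → Prop} (c : Prop) (h : Ht k L) :
    Ht k (fun w => c ∧ L w) := by
  by_cases hc : c
  · exact h.congr (by simp [hc])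
  · exact (Ht.bot k).congr (by simp [hc])

/-- An abstract graded family of languages with the closure properties of star height from
level one on. -/
structure Graded {β : Type} (P : ℕ → (List β → Prop) → Prop) : Prop where
  mono : ∀ {k m L}, P k L → k ≤ m → P m L
  congr : ∀ {k L K}, P k L → (∀ w, L w ↔ K w) → P k K
  bot : ∀ k, P k (fun _ => False)
  or : ∀ {k L K}, P k L → P k K → P k (fun w => L w ∨ K w)
  not : ∀ {k L}, 1 ≤ k → P k L → P k (fun w => ¬ L w)
  mul : ∀ {k L K}, P k L → P k K → P k (fun w => ∃ x y, L x ∧ K y ∧ w = x ++ y)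
  star : ∀ {k L}, P k L → P (k + 1) (fun w => ∃ S : List (List β), (∀ y ∈ S, L y) ∧ w = S.flatten)
  bounded : ∀ k N L, (∀ w, L w → w.length ≤ N) → P k L

namespace Graded

variable {β : Type} {P : ℕ → (List β → Prop) → Prop} (hP : Graded P)
include hP

theorem top {k : ℕ} (hk : 1 ≤ k) : P k (fun _ => True) :=
  hP.congr (hP.not hk (hP.bot k)) (by simp)

theorem and {k : ℕ} {L K : List β → Prop} (hk : 1 ≤ k) (h : P k L) (h' : P k K) :
    P k (fun w => L w ∧ K w) :=
  hP.congr (hP.not hk (hP.or (hP.not hk h) (hP.not hk h'))) (fun w => by tauto)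

theorem ex {ι : Type} [Finite ι] {k : ℕ} {L : ι → List β → Prop} (h : ∀ i, P k (L i)) :
    P k (fun w => ∃ i, L i w) := by
  classical
  have := Fintype.ofFinite ι
  have key : ∀ s : Finset ι, P k (fun w => ∃ i ∈ s, L i w) := by
    intro s
    induction s using Finset.induction_on with
    | empty => exact hP.congr (hP.bot k) (by simp)
    | insert a s _ ih => exact hP.congr (hP.or (h a) ih) (by simp)
  exact hP.congr (key Finset.univ) (by simp)

theorem all {ι : Type} [Finite ι] {k : ℕ} (hk : 1 ≤ k) {L : ι → List β → Prop}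
    (h : ∀ i, P k (L i)) : P k (fun w => ∀ i, L i w) :=
  hP.congr (hP.not hk (hP.ex (fun i => hP.not hk (h i)))) (fun w => by simp)

theorem andConst {k : ℕ} {L : List β → Prop} (c : Prop) (h : P k L) : P k (fun w => c ∧ L w) := by
  by_cases hc : c
  · exact hP.congr h (by simp [hc])
  · exact hP.congr (hP.bot k) (by simp [hc])

theorem impConst {k : ℕ} (hk : 1 ≤ k) {L : List β → Prop} (c : Prop) (h : P k L) :
    P k (fun w => c → L w) := by
  by_cases hc : c
  · exact hP.congr h (by simp [hc])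
  · exact hP.congr (hP.top hk) (by simp [hc])

end Graded

end Vale.Agent.P329
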