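import Vale.Agent.P329.Token

namespace Vale.Agent.P329

set_option linter.unusedSectionVars false

namespace Par

variable {G : Type} [Fintype G] [Group G] (p : Par G) {Γ : Type} (kind : Γ → Option G)

/-- action of one coarse letter on the token -/
def step (t : p.T) (x : Γ) : p.T :=
  match kind x with
  | none => p.tick t
  | some g => (fun q => t.1 (q * g⁻¹) + t.2, 0)

def run (t : p.T) (l : List Γ) : p.T := l.foldl (p.step kind) t

@[simp] theorem run_nil (t : p.T) : p.run kind t [] = t := rfl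
@[simp] theorem run_cons (t : p.T) (x : Γ) (l : List Γ) :
    p.run kind t (x :: l) = p.run kind (p.step kind t x) l := rfl
theorem run_append (t : p.T) (a b : List Γ) :
    p.run kind t (a ++ b) = p.run kind (p.run kind t a) b := List.foldl_append

/-- product of the group values -/
def gval (l : List Γ) : G := (l.map (fun x => (kind x).getD 1)).prod

theorem coord (l : List Γ) (k : ZMod p.r) : ∃ (F : G → ZMod p.r → ZMod p.r) (k' : ZMod p.r),
    (∀ q, Function.Injective (F q)) ∧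
      ∀ u, p.run kind (u, k) l = (fun q => F q (u (q * (gval kind l)⁻¹)), k') := by
  induction l generalizing k with
  | nil => exact ⟨fun _ y => y, k, fun _ _ _ h => h, fun u => by simp [gval]⟩
  | cons x l ih =>
    cases hx : kind x with
    | none =>
      obtain ⟨F, k', h1, h2⟩ := ih (k + 1)
      refine ⟨fun q y => F q (if k + 1 = 0 then p.c (q * (gval kind l)⁻¹) y else y), k', ?_, ?_⟩
      · intro q y y' h
        have := h1 q h
        split_ifs at this with h3
        · exact p.c_inj _ this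
        · exact this
      · intro u
        simp only [run_cons, step, hx, tick]
        rw [h2]
        simp [gval, hx]
    | some g =>
      obtain ⟨F, k', h1, h2⟩ := ih 0
      refine ⟨fun q y => F q (y + k), k', ?_, ?_⟩
      · intro q y y' h
        simpa using h1 q h
      · intro u
        simp only [run_cons, step, hx]
        rw [h2]
        simp [gval, hx, mul_assoc]

def AllR (l : List Γ) : Prop := ∀ x ∈ l, kind x = none

theorem run_allR {l : List Γ} (h : AllR kind l) (t : p.T) :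
    p.run kind t l = p.tick^[l.length] t := by
  induction l generalizing t with
  | nil => rfl
  | cons x l ih =>
    have hx : kind x = none := h x (by simp)
    rw [run_cons, ih (fun y hy => h y (by simp [hy]))]
    simp [step, hx]

theorem AllR.append {kind : Γ → Option G} {a b : List Γ} (h : AllR kind a) (h' : AllR kind b) :
    AllR kind (a ++ b) := fun x hx => (List.mem_append.1 hx).elim (h x) (h' x)

theorem AllR.left {kind : Γ → Option G} {a b : List Γ} (h : AllR kind (a ++ b)) : AllR kind a :=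
  fun x hx => h x (by simp [hx])

theorem AllR.right {kind : Γ → Option G} {a b : List Γ} (h : AllR kind (a ++ b)) : AllR kind b :=
  fun x hx => h x (by simp [hx])

/-- length of a very long run -/
noncomputable def Lam : ℕ := 2 * p.per + p.r

def NoVL (l : List Γ) : Prop := ¬ ∃ a v b, l = a ++ (v ++ b) ∧ AllR kind v ∧ v.length = p.Lam

def Fs (l : List Γ) : Prop := ∃ x y, AllR kind x ∧ p.NoVL kind y ∧ l = x ++ y

def EndsT (l : List Γ) : Prop := ∃ a x, l = a ++ [x] ∧ kind x ≠ none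

def Ds (l : List Γ) : Prop := p.Fs kind l ∧ EndsT kind l

def Hd (t t' : p.T) (l : List Γ) : Prop := AllR kind l ∧ p.per ≤ l.length ∧ p.run kind t l = t'

def Pre (h : p.Hy) (t : p.T) (l : List Γ) : Prop :=
  (p.Ds kind l ∧ p.run kind (p.om h) l = t) ∧
    ∀ h' : p.Hy, ∀ t' : p.T, (h' ≠ h ∧ p.Exc t'.1) → ¬ (p.Ds kind l ∧ p.run kind (p.om h') l = t')

def StartsR (l : List Γ) : Prop := ∃ a b, (AllR kind a ∧ a.length = p.per) ∧ True ∧ l = a ++ b

def K2 (l : List Γ) : Prop :=
  ∃ h : p.Hy, ∃ t : p.T, ∃ h' : p.Hy, ∃ x y, p.Pre kind h t x ∧ p.Hd kind t (p.om h') y ∧ l = x ++ y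

def St2 (s : p.T) (l : List Γ) : Prop :=
  ∃ t : p.T, ∃ h' : p.Hy, ∃ x y, (p.Ds kind x ∧ p.run kind s x = t) ∧ p.Hd kind t (p.om h') y ∧
    l = x ++ y

def En2 (t' : p.T) (l : List Γ) : Prop :=
  ∃ h : p.Hy, ∃ t : p.T, ∃ x y, p.Pre kind h t x ∧
    ((p.Fs kind y ∧ p.run kind t y = t') ∧ p.StartsR kind y) ∧ l = x ++ y

def Tail2 (t : p.T) (l : List Γ) : Prop :=
  ∃ x y, (∃ S : List (List Γ), (∀ z ∈ S, p.K2 kind z) ∧ x = S.flatten) ∧ p.En2 kind t y ∧ l = x ++ y

def A2 (s t : p.T) (l : List Γ) : Prop :=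
  (p.Fs kind l ∧ p.run kind s l = t) ∨
  (∃ t1 : p.T, ∃ x y, (p.Ds kind x ∧ p.run kind s x = t1) ∧ (p.Fs kind y ∧ p.run kind t1 y = t) ∧
    l = x ++ y) ∨
  (∃ x y, p.St2 kind s x ∧ p.Tail2 kind t y ∧ l = x ++ y)

def Good (s : p.T) (l : List Γ) : Prop :=
  ∀ a b, l = a ++ b → a ≠ [] → b ≠ [] → p.run kind s a ≠ (0, 0)

theorem chop (n : ℕ) (hn : 0 < n) (l : List Γ) :
    ∃ (a : List Γ) (S : List (List Γ)), l = a ++ S.flatten ∧ a.length < n ∧
      ∀ y ∈ S, y.length = n := by
  induction hl : l.length using Nat.strong_induction_on generalizing l with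
  | _ N ih =>
    by_cases h : l.length < n
    · exact ⟨l, [], by simp, h, by simp⟩
    · obtain ⟨a, S, h1, h2, h3⟩ := ih (l.length - n) (by omega) (l.take (l.length - n))
        (by simp)
      refine ⟨a, S ++ [l.drop (l.length - n)], ?_, h2, ?_⟩
      · rw [List.flatten_append, ← List.append_assoc, ← h1]
        simp
      · intro y hy
        rcases List.mem_append.1 hy with hy | hy
        · exact h3 y hy
        · simp only [List.mem_singleton] at hy
          subst hy
          simp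
          omega

section
variable {P : ℕ → (List Γ → Prop) → Prop} (hP : Graded P)
include hP

theorem P_allR (s t : p.T) : P 1 (fun l => AllR kind l ∧ p.run kind s l = t) := by
  have h1 : P 1 (fun l => AllR kind l ∧ l.length < p.per ∧ p.run kind s l = t) :=
    hP.bounded 1 p.per _ (fun w h => h.2.1.le)
  have h2 : P 0 (fun l => AllR kind l ∧ l.length = p.per) :=
    hP.bounded 0 p.per _ (fun w h => h.2.le)
  have key : ∀ S : List (List Γ), (∀ y ∈ S, AllR kind y ∧ y.length = p.per) →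
      AllR kind S.flatten ∧ ∀ t, p.run kind t S.flatten = t := by
    intro S hS
    induction S with
    | nil => exact ⟨fun x hx => by simp at hx, fun t => rfl⟩
    | cons y S ih =>
      obtain ⟨i1, i2⟩ := ih (fun z hz => hS z (by simp [hz]))
      obtain ⟨j1, j2⟩ := hS y (by simp)
      refine ⟨AllR.append j1 i1, fun t => ?_⟩
      rw [List.flatten_cons, run_append, i2, p.run_allR kind j1, j2, p.tick_per]
      rfl
  refine hP.congr (hP.mul h1 (hP.star h2)) (fun w => ?_)
  constructor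
  · rintro ⟨x, y, ⟨a1, _, a3⟩, ⟨S, hS, rfl⟩, rfl⟩
    obtain ⟨i1, i2⟩ := key S hS
    exact ⟨AllR.append a1 i1, by rw [run_append, i2, a3]⟩
  · rintro ⟨a1, a2⟩
    obtain ⟨a, S, rfl, b2, b3⟩ := chop p.per p.per_pos w
    have hS : ∀ y ∈ S, AllR kind y ∧ y.length = p.per := fun y hy =>
      ⟨fun x hx => a1 x (by simp only [List.mem_append, List.mem_flatten]; exact Or.inr ⟨y, hy, hx⟩),
        b3 y hy⟩
    refine ⟨a, S.flatten, ⟨a1.left, b2, ?_⟩, ⟨S, hS, rfl⟩, rfl⟩
    rw [run_append, (key S hS).2] at a2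
    exact a2

variable (hB : ∀ s t, P 1 (fun l => p.NoVL kind l ∧ p.run kind s l = t))
include hB

theorem P_Fs (s t : p.T) : P 1 (fun l => p.Fs kind l ∧ p.run kind s l = t) := by
  refine hP.congr (hP.ex (fun m : p.T => hP.mul (p.P_allR kind hP s m) (hB m t))) (fun w => ?_)
  constructor
  · rintro ⟨m, x, y, ⟨a1, a2⟩, ⟨a3, a4⟩, rfl⟩
    exact ⟨⟨x, y, a1, a3, rfl⟩, by rw [run_append, a2, a4]⟩
  · rintro ⟨⟨x, y, a1, a3, rfl⟩, h⟩
    exact ⟨_, x, y, ⟨a1, rfl⟩, ⟨a3, by rw [← run_append, h]⟩, rfl⟩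

theorem P_Ds (s t : p.T) : P 1 (fun l => p.Ds kind l ∧ p.run kind s l = t) := by
  have h1 : P 1 (fun l => ∃ x, l = [x] ∧ kind x ≠ none) :=
    hP.bounded 1 1 _ (by rintro w ⟨x, rfl, _⟩; simp)
  refine hP.congr (hP.and le_rfl (p.P_Fs kind hP hB s t) (hP.mul (hP.top le_rfl) h1))
    (fun w => ?_)
  constructor
  · rintro ⟨⟨a1, a2⟩, x, y, _, ⟨z, rfl, hz⟩, rfl⟩
    exact ⟨⟨a1, x, z, rfl, hz⟩, a2⟩
  · rintro ⟨⟨a1, x, z, rfl, hz⟩, a2⟩
    exact ⟨⟨a1, a2⟩, x, [z], trivial, ⟨z, rfl, hz⟩, rfl⟩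

omit hB in
theorem P_Hd (s t : p.T) : P 1 (p.Hd kind s t) := by
  have h1 : P 1 (fun l : List Γ => l.length < p.per) := hP.bounded 1 p.per _ (fun w h => h.le)
  refine hP.congr (hP.and le_rfl (p.P_allR kind hP s t) (hP.not le_rfl h1)) (fun w => ?_)
  simp only [Hd, not_lt]
  tauto

theorem P_Pre (h : p.Hy) (t : p.T) : P 1 (p.Pre kind h t) :=
  hP.and le_rfl (p.P_Ds kind hP hB _ _) (hP.all le_rfl fun _ => hP.all le_rfl fun _ =>
    hP.impConst le_rfl _ (hP.not le_rfl (p.P_Ds kind hP hB _ _)))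

theorem P_A2 (s t : p.T) : P 2 (p.A2 kind s t) := by
  have k2 : P 1 (p.K2 kind) := hP.ex fun h => hP.ex fun t => hP.ex fun h' =>
    hP.mul (p.P_Pre kind hP hB h t) (p.P_Hd kind hP _ _)
  have st : P 1 (p.St2 kind s) := hP.ex fun t => hP.ex fun h' =>
    hP.mul (p.P_Ds kind hP hB s t) (p.P_Hd kind hP _ _)
  have sr : P 1 (p.StartsR kind) :=
    hP.mul (hP.bounded 1 p.per _ (fun w h => h.2.le)) (hP.top le_rfl)
  have en : P 1 (p.En2 kind t) := hP.ex fun h => hP.ex fun t1 =>
    hP.mul (p.P_Pre kind hP hB h t1) (hP.and le_rfl (p.P_Fs kind hP hB _ _) sr)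
  have tl : P 2 (p.Tail2 kind t) := hP.mul (hP.star k2) (hP.mono en (by norm_num))
  exact hP.or (hP.mono (p.P_Fs kind hP hB _ _) (by norm_num)) (hP.or
    (hP.mono (hP.ex fun t1 => hP.mul (p.P_Ds kind hP hB _ _) (p.P_Fs kind hP hB _ _))
      (by norm_num)) (hP.mul (hP.mono st (by norm_num)) tl))

end

theorem run_endsT {l : List Γ} (h : EndsT kind l) (t : p.T) : (p.run kind t l).2 = 0 := by
  obtain ⟨a, x, rfl, hx⟩ := h
  rw [run_append]
  cases hk : kind x with
  | none => exact absurd hk hx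
  | some g => simp [step, hk]

theorem decode {s : p.T} {pre x y rest : List Γ} {h0 h : p.Hy} {t : p.T}
    (h1 : p.run kind s pre = p.om h0) (h2 : p.Pre kind h t x) (h3 : AllR kind y)
    (h4 : p.per ≤ y.length) (hg : p.Good kind s (pre ++ (x ++ (y ++ rest)))) :
    p.run kind s (pre ++ x) = t := by
  obtain ⟨⟨d1, d2⟩, d3⟩ := h2
  rw [run_append, h1]
  by_cases hh : h0 = h
  · rw [hh, d2]
  exfalso
  have hk := p.run_endsT kind d1.2 (p.om h0)
  by_cases he : p.Exc (p.run kind (p.om h0) x).1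
  · exact d3 h0 _ ⟨hh, he⟩ ⟨d1, rfl⟩
  obtain ⟨N, b, e1, e2⟩ := p.reach_base (p.run kind (p.om h0) x).1
  rw [e2 he] at e1
  obtain ⟨m, _, m2, m3⟩ := p.tick_window e1 0
  refine hg (pre ++ (x ++ y.take m)) (y.drop m ++ rest) ?_ ?_ ?_ ?_
  · simp only [List.append_assoc]
    rw [← List.append_assoc (y.take m), List.take_append_drop]
  · obtain ⟨a, z, rfl, _⟩ := d1.2
    simp
  · intro h5
    have := congrArg List.length h5
    simp at this
    omega
  · rw [run_append, run_append, h1, p.run_allR kind (fun z hz => h3 z (List.mem_of_mem_take hz)),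
      List.length_take, min_eq_left (by omega), ← m3, ← hk]

theorem tail_sound {s t : p.T} (S : List (List Γ)) (hS : ∀ z ∈ S, p.K2 kind z) {e : List Γ}
    (he : p.En2 kind t e) (pre : List Γ) (h0 : p.Hy) (h1 : p.run kind s pre = p.om h0)
    (hg : p.Good kind s (pre ++ (S.flatten ++ e))) : p.run kind s (pre ++ (S.flatten ++ e)) = t := by
  induction S generalizing pre h0 with
  | nil =>
    obtain ⟨h, t1, x, y, a1, ⟨⟨_, a3⟩, a, b, ⟨a4, a5⟩, _, rfl⟩, rfl⟩ := he
    simp only [List.flatten_nil, List.nil_append] at hg ⊢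
    have := p.decode kind h1 a1 a4 a5.ge hg
    rw [← List.append_assoc, run_append, this, a3]
  | cons z S ih =>
    obtain ⟨h, t1, h', x, y, a1, ⟨a2, a3, a4⟩, rfl⟩ := hS z (by simp)
    simp only [List.flatten_cons, List.append_assoc] at hg ⊢
    have := p.decode kind h1 a1 a2 a3 hg
    have e1 : p.run kind s (pre ++ x ++ y) = p.om h' := by rw [run_append, this, a4]
    have := ih (fun z hz => hS z (by simp [hz])) (pre ++ x ++ y) h' e1
      (by simpa only [List.append_assoc] using hg)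
    simpa only [List.append_assoc] using this

theorem A2_sound {s t : p.T} {l : List Γ} (h : p.A2 kind s t l) (hg : p.Good kind s l) :
    p.run kind s l = t := by
  rcases h with h | ⟨t1, x, y, a1, a2, rfl⟩ | ⟨x, y, ⟨t1, h', x1, x2, a1, a2, rfl⟩,
    ⟨_, e, ⟨S, hS, rfl⟩, he, rfl⟩, rfl⟩
  · exact h.2
  · rw [run_append, a1.2, a2.2]
  · exact p.tail_sound kind S hS he _ h' (by rw [run_append, a1.2, a2.2.2]) hg

theorem split_run (l : List Γ) : ∃ x y, l = x ++ y ∧ AllR kind x ∧
    (y = [] ∨ ∃ z y', y = z :: y' ∧ kind z ≠ none) := by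
  induction l with
  | nil => exact ⟨[], [], rfl, fun x hx => by simp at hx, Or.inl rfl⟩
  | cons z l ih =>
    by_cases hz : kind z = none
    · obtain ⟨x, y, rfl, h2, h3⟩ := ih
      refine ⟨z :: x, y, rfl, ?_, h3⟩
      intro a ha
      rcases List.mem_cons.1 ha with rfl | ha
      · exact hz
      · exact h2 a ha
    · exact ⟨[], z :: l, rfl, fun x hx => by simp at hx, Or.inr ⟨z, l, rfl, hz⟩⟩

theorem Lam_pos : 0 < p.Lam := by
  have := p.per_pos
  unfold Lam
  omega

theorem split_VL {z : Γ} {y : List Γ} (hz : kind z ≠ none) (h : ¬ p.NoVL kind (z :: y)) :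
    ∃ y1 v b, y = y1 ++ (v ++ b) ∧ p.NoVL kind (z :: y1) ∧ EndsT kind (z :: y1) ∧
      AllR kind v ∧ v.length = p.Lam := by
  classical
  have hex : ∃ n, ∃ a v b, z :: y = a ++ (v ++ b) ∧ AllR kind v ∧ v.length = p.Lam ∧
      a.length = n := by
    unfold NoVL at h
    push Not at h
    obtain ⟨a, v, b, h1, h2, h3⟩ := h
    exact ⟨_, a, v, b, h1, h2, h3, rfl⟩
  obtain ⟨a, v, b, h1, h2, h3, h4⟩ := Nat.find_spec hex
  have hmin : ∀ a' v' b', z :: y = a' ++ (v' ++ b') → AllR kind v' → v'.length = p.Lam →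
      a.length ≤ a'.length := fun a' v' b' e1 e2 e3 =>
    h4 ▸ Nat.find_min' hex ⟨a', v', b', e1, e2, e3, rfl⟩
  have hL := p.Lam_pos
  cases a with
  | nil =>
    cases v with
    | nil => simp at h3; omega
    | cons x v =>
      simp only [List.nil_append, List.cons_append, List.cons.injEq] at h1
      exact absurd (h1.1 ▸ h2 x (by simp)) hz
  | cons z' y1 =>
    simp only [List.cons_append, List.cons.injEq] at h1
    obtain ⟨rfl, h1⟩ := h1
    refine ⟨y1, v, b, h1, ?_, ?_, h2, h3⟩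
    · rintro ⟨a', v', b', e1, e2, e3⟩
      have := hmin a' v' (b' ++ (v ++ b)) (by
        rw [h1, ← List.cons_append, e1]
        simp) e2 e3
      have := congrArg List.length e1
      simp at this
      simp at *
      omega
    · obtain ⟨a', x, hx⟩ : ∃ a' x, z :: y1 = a' ++ [x] :=
        ⟨_, _, (List.dropLast_append_getLast (by simp)).symm⟩
      refine ⟨a', x, hx, fun hk => ?_⟩
      obtain ⟨v', x', rfl⟩ : ∃ v' x', v = v' ++ [x'] :=
        ⟨_, _, (List.dropLast_append_getLast (by rintro rfl; simp at h3; omega)).symm⟩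
      have := hmin a' (x :: v') (x' :: b) (by
        rw [h1, ← List.cons_append, hx]
        simp) (by
          intro a ha
          rcases List.mem_cons.1 ha with rfl | ha
          · exact hk
          · exact h2 a (by simp [ha])) (by simpa using h3)
      have := congrArg List.length hx
      simp at *
      omega

theorem split_main {l : List Γ} (h : ¬ p.Fs kind l) :
    ∃ x z y1 v b, l = x ++ (z :: y1 ++ (v ++ b)) ∧ AllR kind x ∧ kind z ≠ none ∧
      p.NoVL kind (z :: y1) ∧ EndsT kind (z :: y1) ∧ AllR kind v ∧ v.length = p.Lam := by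
  obtain ⟨x, y, rfl, h1, h2⟩ := split_run kind l
  have hy : ¬ p.NoVL kind y := fun h' => h ⟨x, y, h1, h', rfl⟩
  rcases h2 with rfl | ⟨z, y', rfl, hz⟩
  · exfalso
    apply hy
    rintro ⟨a, v, b, e1, _, e3⟩
    have := congrArg List.length e1
    have := p.Lam_pos
    simp at *
    omega
  · obtain ⟨y1, v, b, rfl, a2, a3, a4, a5⟩ := p.split_VL kind hz hy
    exact ⟨x, z, y1, v, b, rfl, h1, hz, a2, a3, a4, a5⟩

theorem endsT_append {a b : List Γ} (h : EndsT kind b) : EndsT kind (a ++ b) := by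
  obtain ⟨c, x, rfl, hx⟩ := h
  exact ⟨a ++ c, x, by simp, hx⟩

theorem run_le {x y v b : List Γ} {z : Γ} (hz : kind z ≠ none) (hv : AllR kind v)
    (e : v ++ b = x ++ (z :: y)) : v.length ≤ x.length := by
  by_contra hlt
  rcases List.append_eq_append_iff.1 e with ⟨c, h1, _⟩ | ⟨c, h1, h2⟩
  · subst h1
    simp at hlt
  · cases c with
    | nil => subst h1; simp at hlt
    | cons z' c =>
      simp only [List.cons_append, List.cons.injEq] at h2
      exact hz (hv z (by simp [h1, h2.1]))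

theorem tail_complete (l : List Γ) (u : G → ZMod p.r) (v b : List Γ) (hl : l = v ++ b)
    (hv : AllR kind v) (hv' : v.length = p.Lam) (hF : ¬ p.Fs kind l) :
    ∃ y h' l2, l = y ++ l2 ∧ p.Hd kind (u, 0) (p.om h') y ∧
      p.Tail2 kind (p.run kind (u, 0) l) l2 := by
  induction hN : l.length using Nat.strong_induction_on generalizing l u v b with
  | _ N ih =>
    obtain ⟨x, z, y1, v', b', e, a1, a2, a3, a4, a5, a6⟩ := p.split_main kind hF
    have hx : p.Lam ≤ x.length := hv' ▸ run_le kind a2 hv (hl.symm.trans e)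
    obtain ⟨N0, b0, c1, _⟩ := p.reach_base u
    obtain ⟨m, m1, m2, m3⟩ := p.tick_window c1 p.per
    obtain ⟨g, hg⟩ := Option.ne_none_iff_exists'.1 a2
    obtain ⟨F, k', f1, f2⟩ := p.coord kind y1 0
    have f3 : ∀ t : p.T, (p.run kind t (z :: y1)).1 =
        fun q => F q (t.1 (q * (gval kind y1)⁻¹ * g⁻¹) + t.2) := by
      intro t
      simp only [run_cons, step, hg]
      rw [f2]
    unfold Lam at hx
    obtain ⟨j, hj⟩ := p.pinned b0 (x.length - m) (by omega)
      (fun q => q * (gval kind y1)⁻¹ * g⁻¹) F f1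
    have hth := p.th_small (b0, j)
    obtain ⟨x1, x2, rfl, hx1⟩ : ∃ x1 x2, x = x1 ++ x2 ∧ x1.length = p.th (b0, j) + m :=
      ⟨x.take (p.th (b0, j) + m), x.drop (p.th (b0, j) + m), by simp, by simp; omega⟩
    have hx2 : x2.length = (x1 ++ x2).length - m - p.th (b0, j) := by simp; omega
    have hd : p.Hd kind (u, 0) (p.om (b0, j)) x1 := by
      refine ⟨a1.left, by omega, ?_⟩
      rw [p.run_allR kind a1.left, hx1, Function.iterate_add_apply, m3]
      rfl
    have hDs : p.Ds kind (x2 ++ z :: y1) := ⟨⟨x2, z :: y1, a1.right, a3, rfl⟩, endsT_append kind a4⟩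
    have hpre : p.Pre kind (b0, j) (p.run kind (p.om (b0, j)) (x2 ++ z :: y1)) (x2 ++ z :: y1) := by
      refine ⟨⟨hDs, rfl⟩, ?_⟩
      rintro h' t' ⟨n1, n2⟩ ⟨_, rfl⟩
      apply hj h' n1
      rw [run_append, f3, p.run_allR kind a1.right, hx2] at n2
      exact n2
    obtain ⟨u1, hu1⟩ : ∃ u1, p.run kind (p.om (b0, j)) (x2 ++ z :: y1) = (u1, 0) :=
      ⟨_, Prod.ext rfl (p.run_endsT kind hDs.2 _)⟩
    have hrun : p.run kind (u, 0) l = p.run kind (u1, 0) (v' ++ b') := by
      rw [e, List.append_assoc, run_append, hd.2.2, ← List.append_assoc, run_append, hu1]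
    rw [hu1] at hpre
    refine ⟨x1, (b0, j), x2 ++ z :: y1 ++ (v' ++ b'), by simp [e], hd, ?_⟩
    rw [hrun]
    by_cases hF' : p.Fs kind (v' ++ b')
    · refine ⟨[], _, ⟨[], by simp, rfl⟩, ⟨(b0, j), (u1, 0), _, _, hpre, ⟨⟨hF', rfl⟩, ?_⟩, rfl⟩, rfl⟩
      refine ⟨v'.take p.per, v'.drop p.per ++ b', ⟨fun a ha => a5 a (List.mem_of_mem_take ha), ?_⟩,
        trivial, ?_⟩
      · rw [List.length_take, a6]
        unfold Lam
        omega
      · rw [← List.append_assoc, List.take_append_drop]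
    · obtain ⟨y, h', l2, e1, e2, x', e', ⟨S, hS, rfl⟩, e4, rfl⟩ :=
        ih (v' ++ b').length (by rw [← hN, e]; simp; omega) (v' ++ b') u1 v' b' rfl a5 a6 hF' rfl
      refine ⟨((x2 ++ z :: y1 ++ y) :: S).flatten, e', ⟨_, ?_, rfl⟩, e4, by rw [e1]; simp⟩
      intro w hw
      rcases List.mem_cons.1 hw with rfl | hw
      · exact ⟨(b0, j), (u1, 0), h', _, _, hpre, e2, rfl⟩
      · exact hS w hw

theorem A2_complete (s : p.T) (l : List Γ) : p.A2 kind s (p.run kind s l) l := by
  by_cases hF : p.Fs kind l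
  · exact Or.inl ⟨hF, rfl⟩
  right
  obtain ⟨x, z, y1, v', b', e, a1, a2, a3, a4, a5, a6⟩ := p.split_main kind hF
  have hDs : p.Ds kind (x ++ z :: y1) := ⟨⟨x, z :: y1, a1, a3, rfl⟩, endsT_append kind a4⟩
  obtain ⟨u1, hu1⟩ : ∃ u1, p.run kind s (x ++ z :: y1) = (u1, 0) :=
    ⟨_, Prod.ext rfl (p.run_endsT kind hDs.2 _)⟩
  have hrun : p.run kind s l = p.run kind (u1, 0) (v' ++ b') := by
    rw [e, ← List.append_assoc, run_append, hu1]
  rw [hrun]
  by_cases hF' : p.Fs kind (v' ++ b')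
  · exact Or.inl ⟨(u1, 0), _, _, ⟨hDs, hu1⟩, ⟨hF', rfl⟩, by simp [e]⟩
  · obtain ⟨y, h', l2, e1, e2, e3⟩ := p.tail_complete kind (v' ++ b') u1 v' b' rfl a5 a6 hF'
    exact Or.inr ⟨x ++ z :: y1 ++ y, l2, ⟨(u1, 0), h', _, _, ⟨hDs, hu1⟩, e2, rfl⟩, e3,
      by rw [e, e1]; simp⟩

theorem first_cut (s : p.T) (l : List Γ) (h : ¬ p.Good kind s l) :
    ∃ a b, l = a ++ b ∧ a ≠ [] ∧ p.run kind s a = (0, 0) ∧ p.Good kind s a := by
  classical
  have hex : ∃ n, ∃ a b, l = a ++ b ∧ a ≠ [] ∧ p.run kind s a = (0, 0) ∧ a.length = n := by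
    unfold Good at h
    push Not at h
    obtain ⟨a, b, h1, h2, _, h4⟩ := h
    exact ⟨_, a, b, h1, h2, h4, rfl⟩
  obtain ⟨a, b, h1, h2, h3, h4⟩ := Nat.find_spec hex
  refine ⟨a, b, h1, h2, h3, ?_⟩
  rintro a' b' rfl e2 e3 e4
  have := Nat.find_min' hex ⟨a', b' ++ b, by simp [h1], e2, e4, rfl⟩
  rw [← h4, List.length_append] at this
  have := List.length_pos_iff.2 e3
  omega

theorem levels {P : ℕ → (List Γ → Prop) → Prop} (hP : Graded P)
    (hB : ∀ s t, P 1 (fun l => p.NoVL kind l ∧ p.run kind s l = t)) (s t : p.T) :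
    P 3 (fun l => p.run kind s l = t) := by
  have hne : P 2 (fun l : List Γ => ¬ l = []) :=
    hP.not (by norm_num) (hP.bounded 2 0 _ (by rintro w rfl; simp))
  have hA : ∀ s t, P 2 (fun l => p.Good kind s l ∧ p.run kind s l = t) := by
    intro s t
    refine hP.congr (hP.and (by norm_num) (p.P_A2 kind hP hB s t) (hP.not (by norm_num)
      (hP.mul (hP.and (by norm_num) (p.P_A2 kind hP hB s (0, 0)) hne) hne))) (fun l => ?_)
    constructor
    · rintro ⟨h1, h2⟩
      have hg : p.Good kind s l := by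
        intro a b e1 e2 e3 e4
        exact h2 ⟨a, b, ⟨e4 ▸ p.A2_complete kind s a, e2⟩, e3, e1⟩
      exact ⟨hg, p.A2_sound kind h1 hg⟩
    · rintro ⟨hg, rfl⟩
      refine ⟨p.A2_complete kind s l, ?_⟩
      rintro ⟨a, b, ⟨e1, e2⟩, e3, rfl⟩
      refine hg a b rfl e2 e3 (p.A2_sound kind e1 ?_)
      rintro a' b' rfl f2 _
      exact hg a' (b' ++ b) (by simp) f2 (by simp [e3])
  have h3 := hP.or (hP.mono (hA s t) (show 2 ≤ 3 by norm_num))
    (hP.mul (hP.mono (hA s (0, 0)) (show 2 ≤ 3 by norm_num))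
      (hP.mul (hP.star (hA (0, 0) (0, 0))) (hP.mono (hA (0, 0) t) (show 2 ≤ 3 by norm_num))))
  refine hP.congr h3 (fun l => ?_)
  constructor
  · rintro (h | ⟨a, _, h1, ⟨_, e, ⟨S, hS, rfl⟩, h2, rfl⟩, rfl⟩)
    · exact h.2
    · have key : p.run kind (0, 0) S.flatten = (0, 0) := by
        induction S with
        | nil => rfl
        | cons y S ih =>
          rw [List.flatten_cons, run_append, (hS y (by simp)).2]
          exact ih (fun z hz => hS z (by simp [hz]))
      rw [run_append, h1.2, run_append, key, h2.2]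
  · intro h
    clear h3
    induction hN : l.length using Nat.strong_induction_on generalizing l s with
    | _ N ih =>
      by_cases hg : p.Good kind s l
      · exact Or.inl ⟨hg, h⟩
      right
      obtain ⟨a, b, rfl, h2, h3, h4⟩ := p.first_cut kind s l hg
      rw [run_append, h3] at h
      have := List.length_pos_iff.2 h2
      rcases ih b.length (by rw [← hN]; simp; omega) (0, 0) b h rfl with
        h5 | ⟨a', _, h5, ⟨_, e, ⟨S, hS, rfl⟩, h6, rfl⟩, rfl⟩
      · exact ⟨a, b, ⟨h4, h3⟩, ⟨[], b, ⟨[], by simp, rfl⟩, h5, rfl⟩, rfl⟩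
      · refine ⟨a, _, ⟨h4, h3⟩, ⟨(a' :: S).flatten, e, ⟨a' :: S, ?_, rfl⟩, h6, by simp⟩, rfl⟩
        intro y hy
        rcases List.mem_cons.1 hy with rfl | hy
        · exact h5
        · exact hS y hy

end Par

end Vale.Agent.P329
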