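import Vale.Agent.P329.Ht

namespace Vale.Agent.P329

theorem two_pow_pair {p q p' q' : ℕ} (h1 : p ≤ q) (h2 : p' ≤ q')
    (e : 2 ^ p + 2 ^ q = 2 ^ p' + 2 ^ q') : p = p' ∧ q = q' := by
  have key : ∀ {a b c d : ℕ}, a ≤ b → 2 ^ a + 2 ^ b = 2 ^ c + 2 ^ d → ¬ b < d := by
    intro a b c d h e hlt
    have h3 : 2 ^ a ≤ 2 ^ b := Nat.pow_le_pow_right (by norm_num) h
    have h4 : 2 ^ (b + 1) ≤ 2 ^ d := Nat.pow_le_pow_right (by norm_num) hlt
    have h5 : 0 < 2 ^ c := by positivity
    rw [pow_succ] at h4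
    omega
  have hq : q = q' := by
    have a1 := key h1 e
    have a2 := key h2 e.symm
    omega
  subst hq
  exact ⟨Nat.pow_right_injective (le_refl 2) (by simpa using e), rfl⟩

theorem sidon {a b c d : ℕ} (e : 2 ^ a + 2 ^ d = 2 ^ c + 2 ^ b) (h : a ≠ b) : b = d ∧ a = c := by
  rcases le_total a d with h1 | h1 <;> rcases le_total c b with h2 | h2
  · have := two_pow_pair h1 h2 e
    omega
  · have := two_pow_pair h1 h2 (e.trans (add_comm _ _))
    omega
  · have := two_pow_pair h1 h2 ((add_comm _ _).trans e)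
    omega
  · have := two_pow_pair h1 h2 ((add_comm _ _).trans (e.trans (add_comm _ _)))
    omega

/-- Parameters of the token. -/
structure Par (G : Type) [Fintype G] where
  r : ℕ
  s : ℕ
  rq : G → ℕ
  pos : ∀ q, 0 < rq q
  le : ∀ q, rq q ≤ r
  ge : ∀ q, r ≤ rq q + s
  cop : ∀ q q', q ≠ q' → Nat.Coprime (rq q) (rq q')
  big : 2 * 2 ^ Nat.card ((G → Fin (s + 1)) × Fin (Fintype.card G * ((s + 1) * (s + 1)) + 1))
    + s + 2 ≤ r

theorem exists_par (G : Type) [Fintype G] : Nonempty (Par G) := by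
  classical
  let n := Fintype.card G
  let e := Fintype.equivFin G
  let s := n * n.factorial
  let m := 2 * 2 ^ Nat.card ((G → Fin (s + 1)) × Fin (n * ((s + 1) * (s + 1)) + 1)) + s + 2
  have hf : 0 < n.factorial := Nat.factorial_pos _
  refine ⟨⟨(m + n) * n.factorial + 1, s, fun q => (m + e q) * n.factorial + 1, ?_, ?_, ?_, ?_, ?_⟩⟩
  · intro q
    positivity
  · intro q
    have := (e q).2
    have : (m + e q) * n.factorial ≤ (m + n) * n.factorial :=
      Nat.mul_le_mul_right _ (by omega)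
    omega
  · intro q
    have h1 : (m + n) * n.factorial = m * n.factorial + s := by simp only [s]; ring
    have h2 : m * n.factorial ≤ (m + e q) * n.factorial := Nat.mul_le_mul_right _ (by omega)
    omega
  · have key : ∀ q q' : G, (e q : ℕ) < e q' →
        Nat.Coprime ((m + e q) * n.factorial + 1) ((m + e q') * n.factorial + 1) := by
      intro q q' h
      have h0 : (e q' : ℕ) < n := (e q').2
      exact Nat.coprime_mul_succ (Nat.dvd_factorial (by omega) (by omega))
    intro q q' h
    have hne : (e q : ℕ) ≠ e q' := fun h' => h (e.injective (Fin.ext h'))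
    rcases lt_or_gt_of_ne hne with h' | h'
    · exact key q q' h'
    · exact (key q' q h').symm
  · have h2 : m * 1 ≤ (m + n) * n.factorial := Nat.mul_le_mul (by omega) hf
    exact (show m ≤ (m + n) * n.factorial + 1 by omega)

namespace Par

variable {G : Type} [Fintype G] (p : Par G)

theorem two_le : 2 ≤ p.r := by have := p.big; omega

instance : NeZero p.r := ⟨by have := p.two_le; omega⟩

/-- the cycle of coordinate `q` -/
def c (q : G) (x : ZMod p.r) : ZMod p.r :=
  if x.val < p.rq q then (((x.val + 1) % p.rq q : ℕ) : ZMod p.r) else x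

theorem val_mod (q : G) (k : ℕ) : (((k % p.rq q : ℕ) : ZMod p.r)).val = k % p.rq q := by
  rw [ZMod.val_natCast]
  exact Nat.mod_eq_of_lt ((Nat.mod_lt _ (p.pos q)).trans_le (p.le q))

theorem c_iter (q : G) (x : ZMod p.r) (hx : x.val < p.rq q) (k : ℕ) :
    (p.c q)^[k] x = (((x.val + k) % p.rq q : ℕ) : ZMod p.r) := by
  induction k with
  | zero => simp [Nat.mod_eq_of_lt hx]
  | succ k ih =>
    rw [Function.iterate_succ_apply', ih, c, val_mod, if_pos (Nat.mod_lt _ (p.pos q))]
    congr 1
    rw [Nat.mod_add_mod, add_assoc]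

theorem c_iter_frozen (q : G) (x : ZMod p.r) (hx : ¬ x.val < p.rq q) (k : ℕ) :
    (p.c q)^[k] x = x := by
  apply Function.iterate_fixed
  rw [c, if_neg hx]

theorem c_inj (q : G) : Function.Injective (p.c q) := by
  intro x y h
  have hv := congrArg ZMod.val h
  have hq := p.pos q
  unfold c at hv
  apply ZMod.val_injective
  split_ifs at hv with h1 h2 h2
  · rw [val_mod, val_mod] at hv
    have e1 : (x.val + 1) % p.rq q = if x.val + 1 = p.rq q then 0 else x.val + 1 := by
      split_ifs with h3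
      · rw [h3, Nat.mod_self]
      · exact Nat.mod_eq_of_lt (by omega)
    have e2 : (y.val + 1) % p.rq q = if y.val + 1 = p.rq q then 0 else y.val + 1 := by
      split_ifs with h3
      · rw [h3, Nat.mod_self]
      · exact Nat.mod_eq_of_lt (by omega)
    rw [e1, e2] at hv
    split_ifs at hv <;> omega
  · rw [val_mod] at hv
    have := Nat.mod_lt (x.val + 1) hq
    omega
  · rw [val_mod] at hv
    have := Nat.mod_lt (y.val + 1) hq
    omega
  · exact hv

theorem c_shift (q : G) (x : ZMod p.r) : ∃ d : ℕ, d ≤ p.s + 1 ∧ p.c q x = x + d := by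
  unfold c
  split_ifs with h
  · by_cases h3 : x.val + 1 = p.rq q
    · have h1 := p.le q
      have h2 := p.ge q
      refine ⟨p.r - x.val, by omega, ?_⟩
      rw [h3, Nat.mod_self, Nat.cast_sub (by omega)]
      simp
    · refine ⟨1, by omega, ?_⟩
      rw [Nat.mod_eq_of_lt (by omega)]
      simp
  · exact ⟨0, by omega, by simp⟩

/-- token states -/
abbrev T : Type := (G → ZMod p.r) × ZMod p.r

/-- one return -/
def tick (t : p.T) : p.T := (fun q => if t.2 + 1 = 0 then p.c q (t.1 q) else t.1 q, t.2 + 1)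

theorem tick_inj : Function.Injective p.tick := by
  rintro ⟨u, k⟩ ⟨u', k'⟩ h
  simp only [tick, Prod.mk.injEq, add_left_inj] at h
  obtain ⟨h1, rfl⟩ := h
  congr 1
  funext q
  have := congrFun h1 q
  split_ifs at this with h2
  · exact p.c_inj q this
  · exact this

theorem tick_iter (u : G → ZMod p.r) (N : ℕ) :
    p.tick^[N] (u, 0) = (fun q => (p.c q)^[N / p.r] (u q), (N : ZMod p.r)) := by
  have hr := p.two_le
  induction N with
  | zero => simp
  | succ N ih =>
    rw [Function.iterate_succ_apply', ih, tick]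
    simp only [Prod.mk.injEq]
    refine ⟨?_, by simp⟩
    funext q
    have e : ((N : ZMod p.r) + 1 = 0) ↔ p.r ∣ N + 1 := by
      rw [← ZMod.natCast_eq_zero_iff]
      simp
    rw [Nat.succ_div]
    by_cases h : p.r ∣ N + 1
    · rw [if_pos (e.2 h), if_pos h, Function.iterate_succ_apply']
    · rw [if_neg (fun h' => h (e.1 h')), if_neg h, add_zero]

/-- a period of the tick -/
noncomputable def per : ℕ := Nat.card (Equiv.Perm p.T)

theorem per_pos : 0 < p.per := Nat.card_pos

theorem tick_per : p.tick^[p.per] = id := by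
  classical
  let e : Equiv.Perm p.T := Equiv.ofBijective p.tick (Finite.injective_iff_bijective.1 p.tick_inj)
  have h : e ^ p.per = 1 := pow_card_eq_one'
  have h2 : ⇑(e ^ p.per) = p.tick^[p.per] := Equiv.Perm.coe_pow e _
  rw [← h2, h]
  rfl

theorem tick_mod (N : ℕ) (t : p.T) : p.tick^[N] t = p.tick^[N % p.per] t := by
  conv_lhs => rw [← Nat.mod_add_div N p.per, Function.iterate_add_apply, Function.iterate_mul,
    p.tick_per, Function.iterate_id]
  rfl

theorem tick_window {t t' : p.T} {N : ℕ} (h : p.tick^[N] t = t') (a : ℕ) :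
    ∃ m, a ≤ m ∧ m < a + p.per ∧ p.tick^[m] t = t' := by
  have hp := p.per_pos
  refine ⟨a + (N + a * p.per - a) % p.per, by omega, by
    have := Nat.mod_lt (N + a * p.per - a) hp
    omega, ?_⟩
  rw [p.tick_mod, Nat.add_mod_mod]
  have : a ≤ a * p.per := Nat.le_mul_of_pos_right _ hp
  rw [show a + (N + a * p.per - a) = N + a * p.per by omega, Nat.add_mul_mod_self_right,
    ← p.tick_mod, h]

/-- exceptional vectors -/
def Exc (u : G → ZMod p.r) : Prop := ∃ q, p.rq q ≤ (u q).val

/-- base vectors -/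
def bv (b : G → Fin (p.s + 1)) : G → ZMod p.r := fun q => - ((b q : ℕ) : ZMod p.r)

theorem high_eq (q : G) (x : ZMod p.r) (h : p.rq q ≤ x.val) :
    ∃ e : Fin (p.s + 1), x = - ((e : ℕ) : ZMod p.r) := by
  have h1 := p.ge q
  have h2 := ZMod.val_lt x
  refine ⟨⟨p.r - x.val, by omega⟩, ?_⟩
  simp only
  rw [Nat.cast_sub h2.le]
  simp

theorem reach_base (u : G → ZMod p.r) :
    ∃ (N : ℕ) (b : G → Fin (p.s + 1)), p.tick^[N] (u, 0) = (p.bv b, 0) ∧
      (¬ p.Exc u → p.bv b = 0) := by
  classical
  have hc : Set.Pairwise ((Finset.univ : Finset G) : Set G)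
      (Function.onFun Nat.Coprime p.rq) := fun q _ q' _ h => p.cop q q' h
  obtain ⟨k, hk⟩ := Nat.chineseRemainderOfFinset (fun q => p.rq q - (u q).val) p.rq Finset.univ
    (fun q _ => (p.pos q).ne') hc
  have hb : ∀ q, ∃ e : Fin (p.s + 1), (p.c q)^[k] (u q) = - ((e : ℕ) : ZMod p.r) ∧
      ((u q).val < p.rq q → e = 0) := by
    intro q
    by_cases h : (u q).val < p.rq q
    · refine ⟨0, ?_, fun _ => rfl⟩
      rw [p.c_iter q _ h]
      have h1 : (u q).val + k ≡ (u q).val + (p.rq q - (u q).val) [MOD p.rq q] :=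
        Nat.ModEq.add_left _ (hk q (Finset.mem_univ q))
      rw [show (u q).val + (p.rq q - (u q).val) = p.rq q by omega] at h1
      unfold Nat.ModEq at h1
      rw [h1]
      simp
    · obtain ⟨e, he⟩ := p.high_eq q (u q) (by omega)
      exact ⟨e, by rw [p.c_iter_frozen q _ h, he], fun h' => absurd h' h⟩
  choose b hb1 hb2 using hb
  have hr := p.two_le
  refine ⟨k * p.r, b, ?_, ?_⟩
  · rw [tick_iter, Nat.mul_div_cancel _ (by omega)]
    simp only [Prod.mk.injEq]
    exact ⟨funext hb1, by simp⟩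
  · intro h
    funext q
    have : (u q).val < p.rq q := by
      by_contra h'
      exact h ⟨q, by omega⟩
    simp [bv, hb2 q this]

theorem traj_inj (q : G) (y : ZMod p.r) {N N' : ℕ} (h1 : N < N') (h2 : N' + p.s + 2 ≤ N + p.r) :
    (p.c q)^[N / p.r] y + (N : ZMod p.r) ≠ (p.c q)^[N' / p.r] y + (N' : ZMod p.r) := by
  have hr := p.two_le
  obtain ⟨d, rfl⟩ := Nat.exists_eq_add_of_lt h1
  have key : ∀ k : ℕ, 0 < k → k < p.r → ∀ x : ZMod p.r, x + (N : ZMod p.r) ≠ x + N + k := by
    intro k k0 k1 x h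
    have : (k : ZMod p.r) = 0 := by simpa using h
    rw [ZMod.natCast_eq_zero_iff] at this
    exact absurd (Nat.le_of_dvd k0 this) (by omega)
  have hA : (N + d + 1) / p.r = N / p.r ∨ (N + d + 1) / p.r = N / p.r + 1 := by
    have a1 : N / p.r ≤ (N + d + 1) / p.r := Nat.div_le_div_right (by omega)
    have a2 : (N + d + 1) / p.r ≤ (N + p.r) / p.r := Nat.div_le_div_right (by omega)
    rw [Nat.add_div_right _ (by omega)] at a2
    omega
  rcases hA with hA | hA
  · rw [hA]
    intro h
    apply key (d + 1) (by omega) (by omega) ((p.c q)^[N / p.r] y)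
    refine h.trans ?_
    push_cast
    ring
  · rw [hA, Function.iterate_succ_apply']
    obtain ⟨e, he1, he2⟩ := p.c_shift q ((p.c q)^[N / p.r] y)
    rw [he2]
    intro h
    apply key (d + 1 + e) (by omega) (by omega) ((p.c q)^[N / p.r] y)
    refine h.trans ?_
    push_cast
    ring

/-- hypotheses for the middle level -/
abbrev Hy : Type := (G → Fin (p.s + 1)) × Fin (Fintype.card G * ((p.s + 1) * (p.s + 1)) + 1)

noncomputable def th (h : p.Hy) : ℕ := 2 ^ (Finite.equivFin p.Hy h : ℕ)

/-- designated states -/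
noncomputable def om (h : p.Hy) : p.T := p.tick^[p.th h] (p.bv h.1, 0)

theorem th_small (h : p.Hy) : 2 * p.th h + p.s + 2 ≤ p.r := by
  have h1 : 2 * 2 ^ Nat.card p.Hy + p.s + 2 ≤ p.r := p.big
  have h2 : p.th h ≤ 2 ^ Nat.card p.Hy :=
    Nat.pow_le_pow_right (by norm_num) (Finite.equivFin p.Hy h).2.le
  omega

theorem th_sidon {a b c d : p.Hy} (e : p.th a + p.th d = p.th c + p.th b) (h : a ≠ b) : b = d := by
  have := sidon e (fun h' => h ((Finite.equivFin p.Hy).injective (Fin.ext h')))
  exact (Finite.equivFin p.Hy).injective (Fin.ext this.1)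

theorem pinned (b0 : G → Fin (p.s + 1)) (m0 : ℕ) (hm : p.r ≤ m0) (σ : G → G)
    (F : G → ZMod p.r → ZMod p.r) (hF : ∀ q, Function.Injective (F q)) :
    ∃ j, ∀ h : p.Hy, h ≠ (b0, j) →
      ¬ p.Exc (fun q => F q ((p.tick^[m0 - p.th (b0, j)] (p.om h)).1 (σ q) +
        (p.tick^[m0 - p.th (b0, j)] (p.om h)).2)) := by
  classical
  by_contra hcon
  push Not at hcon
  choose h hne hexc using hcon
  choose q hq using hexc
  have he := fun j => p.high_eq (q j) _ (hq j)
  choose e he using he
  have hcard : Fintype.card (G × Fin (p.s + 1) × Fin (p.s + 1)) <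
      Fintype.card (Fin (Fintype.card G * ((p.s + 1) * (p.s + 1)) + 1)) := by simp
  obtain ⟨j1, j2, hj, heq⟩ := Fintype.exists_ne_map_eq_of_card_lt
    (fun j => (q j, e j, (h j).1 (σ (q j)))) hcard
  simp only [Prod.mk.injEq] at heq
  obtain ⟨e1, e2, e3⟩ := heq
  have h1 := he j1
  have h2 := he j2
  rw [← e2, ← e1] at h2
  have h3 := hF _ (h1.trans h2.symm)
  simp only [om, ← Function.iterate_add_apply] at h3
  simp only [tick_iter, bv] at h3
  rw [← e1] at e3
  rw [← e3] at h3
  have t1 := p.th_small (b0, j1)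
  have t2 := p.th_small (b0, j2)
  have t3 := p.th_small (h j1)
  have t4 := p.th_small (h j2)
  have hN : m0 - p.th (b0, j1) + p.th (h j1) = m0 - p.th (b0, j2) + p.th (h j2) := by
    by_contra hne'
    rcases lt_or_gt_of_ne hne' with hlt | hlt
    · exact p.traj_inj _ _ hlt (by omega) h3
    · exact p.traj_inj _ _ hlt (by omega) h3.symm
  have := p.th_sidon (a := h j1) (b := (b0, j1)) (c := h j2) (d := (b0, j2)) (by omega) (hne j1)
  exact hj (by simpa using this)

end Par

end Vale.Agent.P329
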